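import Vale.Agent.P133.Defs

namespace Vale.Agent.P133

variable {A : Type*} [NonUnitalCStarAlgebra A]

theorem exact_of_near {f c k d : A} (hf : f = f * c * k) (h : ‖c - d‖ * ‖k‖ < 1) :
    ∃ z, f = f * d * z := by
  have hq : ‖(c - d) * k‖ < 1 := (norm_mul_le _ _).trans_lt h
  have C : ContractingWith ‖(c - d) * k‖₊ fun z : A => k + z * ((c - d) * k) := by
    refine ⟨hq, LipschitzWith.of_dist_le_mul fun x y => ?_⟩
    rw [dist_eq_norm, dist_eq_norm, add_sub_add_left_eq_sub, ← sub_mul, mul_comm]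
    exact norm_mul_le _ _
  obtain ⟨z, hz⟩ : ∃ z : A, k + z * ((c - d) * k) = z := ⟨_, C.fixedPoint_isFixedPt⟩
  refine ⟨z, ?_⟩
  have e : f * d * z - f = (f * d * z - f) * ((c - d) * k) := by
    have e1 : f * d * z = f * d * k + f * d * z * ((c - d) * k) := by
      conv_lhs => rw [← hz]
      simp only [mul_add, mul_assoc]
    have e2 : f * ((c - d) * k) = f - f * d * k := by
      rw [sub_mul, mul_sub, ← mul_assoc, ← hf, mul_assoc]
    rw [sub_mul, e2]
    conv_lhs => rw [e1]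
    abel
  have e3 := norm_mul_le (f * d * z - f) ((c - d) * k)
  rw [← e] at e3
  have e4 : ‖f * d * z - f‖ = 0 := by nlinarith [norm_nonneg (f * d * z - f)]
  exact (sub_eq_zero.1 (norm_eq_zero.1 e4)).symm

theorem self_Idl (b : A) : b ∈ Idl b := fun _ _ h => h

theorem Idl_trans {a b c : A} (h : a ∈ Idl b) (h' : b ∈ Idl c) : a ∈ Idl c :=
  fun I hI hc => h I hI (h' I hI hc)

variable [PartialOrder A] [StarOrderedRing A]

theorem cut {c : A} (hc : 0 ≤ c) {ε : ℝ} (hε : 0 < ε) :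
    ∃ f k : A, 0 ≤ f ∧ f = f * c * k ∧ ‖c - f‖ ≤ ε ∧ ‖c * k‖ ≤ 1 := by
  have m : ∀ t : ℝ, 0 < max t ε := fun t => hε.trans_le (le_max_right _ _)
  have k1 : Continuous fun t : ℝ => t / (max t ε) ^ 2 :=
    continuous_id.div (by fun_prop) fun t => (pow_pos (m t) 2).ne'
  have f0 : max (0 - ε) 0 = 0 := max_eq_right (by linarith)
  have e : c * cfcₙ (fun t : ℝ => t / (max t ε) ^ 2) c =
      cfcₙ (fun t : ℝ => t * (t / (max t ε) ^ 2)) c := by
    rw [cfcₙ_mul (fun t : ℝ => t) _ c (hg := k1.continuousOn), cfcₙ_id' ℝ c]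
  refine ⟨cfcₙ (fun t : ℝ => max (t - ε) 0) c, cfcₙ (fun t : ℝ => t / (max t ε) ^ 2) c,
    cfcₙ_nonneg fun t _ => le_max_right _ _, ?_, ?_, ?_⟩
  · rw [mul_assoc, e, ← cfcₙ_mul (fun t : ℝ => max (t - ε) 0)
      (fun t : ℝ => t * (t / (max t ε) ^ 2)) c (hg := (continuous_id.mul k1).continuousOn)]
    refine cfcₙ_congr fun t _ => ?_
    rcases le_total t ε with h | h
    · simp [max_eq_right (sub_nonpos.2 h)]
    · have : t ≠ 0 := (hε.trans_le h).ne'
      simp only [max_eq_left h]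
      field_simp
  · have e' : c - cfcₙ (fun t : ℝ => max (t - ε) 0) c =
        cfcₙ (fun t : ℝ => t - max (t - ε) 0) c := by
      rw [cfcₙ_sub (fun t : ℝ => t) _ c, cfcₙ_id' ℝ c]
    rw [e']
    refine norm_cfcₙ_le fun t ht => ?_
    have := quasispectrum_nonneg_of_nonneg c hc t ht
    rw [Real.norm_eq_abs, abs_le]
    rcases le_total t ε with h | h
    · rw [max_eq_right (sub_nonpos.2 h)]
      constructor <;> linarith
    · rw [max_eq_left (sub_nonneg.2 h)]
      constructor <;> linarith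
  · rw [e]
    refine norm_cfcₙ_le fun t ht => ?_
    have := quasispectrum_nonneg_of_nonneg c hc t ht
    rw [Real.norm_of_nonneg (by positivity), ← mul_div_assoc, div_le_one (pow_pos (m t) 2)]
    nlinarith [le_max_left t ε]

theorem approx (x : A) {ε : ℝ} (hε : 0 < ε) : ∃ k, ‖x - x * (star x * x) * k‖ < ε := by
  obtain ⟨f, k, f0, f1, f2, f3⟩ := cut (star_mul_self_nonneg x) (ε := ε ^ 2 / 8) (by positivity)
  refine ⟨k, ?_⟩
  obtain ⟨e, he⟩ : ∃ e, e = star x * x * k := ⟨_, rfl⟩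
  obtain ⟨g, hg⟩ : ∃ g, g = star x * x - f := ⟨_, rfl⟩
  rw [mul_assoc f, ← he] at f1
  rw [← he] at f3
  rw [← hg] at f2
  have f4 : f = star e * f := by
    have := congrArg star f1
    rwa [star_mul, f0.isSelfAdjoint.star_eq] at this
  have a : star x * x = g + f := by rw [hg, sub_add_cancel]
  have i : star (x - x * e) * (x - x * e) = g - g * e - star e * g + star e * g * e := by
    have : star (x - x * e) * (x - x * e) = star x * x - star x * x * e - star e * (star x * x) +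
        star e * (star x * x) * e := by
      simp only [star_sub, star_mul, mul_sub, sub_mul, mul_assoc]
      abel
    rw [this, a]
    simp only [mul_add, add_mul, ← f1, ← f4]
    abel
  have n1 := (norm_mul_le g e).trans (mul_le_of_le_one_right (norm_nonneg _) f3)
  have n2 := (norm_mul_le (star e) g).trans
    (mul_le_of_le_one_left (norm_nonneg _) ((norm_star e).trans_le f3))
  have n3 := (norm_mul_le (star e * g) e).trans (mul_le_of_le_one_right (norm_nonneg _) f3)
  have n4 := norm_add_le (g - g * e - star e * g) (star e * g * e)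
  have n5 := norm_sub_le (g - g * e) (star e * g)
  have n6 := norm_sub_le g (g * e)
  rw [← i, CStarRing.norm_star_mul_self] at n4
  rw [mul_assoc, ← he]
  refine lt_of_mul_self_lt_mul_self₀ hε.le ?_
  nlinarith [sq_pos_of_pos hε]

theorem mem_of_sq {I : TwoSidedIdeal A} (hI : IsClosed (I : Set A)) {x : A}
    (h : star x * x ∈ I) : x ∈ I := by
  refine hI.closure_subset (Metric.mem_closure_iff.2 fun ε hε => ?_)
  obtain ⟨k, hk⟩ := approx x hε
  exact ⟨_, I.mul_mem_right _ _ (I.mul_mem_left _ _ h), by rwa [dist_eq_norm]⟩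

theorem Idl_sq (x : A) : x ∈ Idl (star x * x) := fun _ hI h => mem_of_sq hI h

/-- sums of `n` terms -/
def Sm (n : ℕ) (a : A) : Set A := {x | ∃ p q : Fin n → A, x = ∑ l, star (p l) * a * q l}

omit [PartialOrder A] [StarOrderedRing A] in
theorem Sm_add {n : ℕ} {a : A} (h : PInf n a) {x y : A} (hx : x ∈ Sm n a) (hy : y ∈ Sm n a) :
    x + y ∈ closure (Sm n a) := by
  obtain ⟨p, q, rfl⟩ := hx
  obtain ⟨p', q', rfl⟩ := hy
  let P : Fin n ⊕ Fin n → A := Sum.elim p p'
  let Q : Fin n ⊕ Fin n → A := Sum.elim q q'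
  refine Metric.mem_closure_iff.2 fun ε hε => ?_
  obtain ⟨C, hC⟩ : ∃ C, C = ∑ j, ∑ k, ‖P j‖ * ‖Q k‖ := ⟨_, rfl⟩
  have C0 : 0 ≤ C := hC ▸ by positivity
  obtain ⟨X, hX⟩ := h (ε / (C + 1)) (by positivity)
  refine ⟨_, ⟨fun i => ∑ j, X i j * P j, fun i => ∑ k, X i k * Q k, rfl⟩, ?_⟩
  have e : ∑ i, star (∑ j, X i j * P j) * a * ∑ k, X i k * Q k -
      (∑ l, star (p l) * a * q l + ∑ l, star (p' l) * a * q' l) = ∑ j, ∑ k, star (P j) *
        (∑ i, star (X i j) * a * X i k - if j = k then a else 0) * Q k := by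
    have e1 : ∑ l, star (p l) * a * q l + ∑ l, star (p' l) * a * q' l =
        ∑ j, ∑ k, star (P j) * (if j = k then a else 0) * Q k := by
      simp [P, Q]
    rw [e1]
    simp only [mul_sub, sub_mul, Finset.sum_sub_distrib, star_sum, star_mul, Finset.sum_mul,
      Finset.mul_sum, mul_assoc]
    rw [Finset.sum_comm, sub_left_inj]
    rw [Finset.sum_comm (f := fun j k => ∑ i, star (P j) * (star (X i j) * (a * (X i k * Q k))))]
    exact Finset.sum_congr rfl fun k _ => Finset.sum_comm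
  rw [dist_comm, dist_eq_norm, e]
  have b : ‖∑ j, ∑ k, star (P j) * (∑ i, star (X i j) * a * X i k - if j = k then a else 0) *
      Q k‖ ≤ ε / (C + 1) * C := by
    rw [hC, Finset.mul_sum]
    refine norm_sum_le_of_le _ fun j _ => ?_
    rw [Finset.mul_sum]
    refine norm_sum_le_of_le _ fun k _ => (norm_mul_le _ _).trans ?_
    rw [← hC, ← mul_assoc]
    refine mul_le_mul_of_nonneg_right ((norm_mul_le _ _).trans ?_) (norm_nonneg _)
    rw [norm_star, mul_comm]
    exact mul_le_mul_of_nonneg_right (hX j k).le (norm_nonneg _)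
  refine b.trans_lt ?_
  rw [div_mul_eq_mul_div, div_lt_iff₀ (by positivity)]
  nlinarith

theorem Idl_sub {n : ℕ} (hn : 1 ≤ n) {a : A} (ha : 0 ≤ a) (h : PInf n a) :
    Idl a ⊆ closure (Sm n a) := by
  have l : ∀ z, ∀ x ∈ Sm n a, z * x ∈ Sm n a := by
    rintro z _ ⟨p, q, rfl⟩
    exact ⟨fun l => p l * star z, q, by simp [Finset.mul_sum, mul_assoc]⟩
  have r : ∀ z, ∀ x ∈ Sm n a, x * z ∈ Sm n a := by
    rintro z _ ⟨p, q, rfl⟩
    exact ⟨p, fun l => q l * z, by simp [Finset.sum_mul, mul_assoc]⟩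
  have g : ∀ x ∈ Sm n a, -x ∈ Sm n a := by
    rintro _ ⟨p, q, rfl⟩
    exact ⟨p, fun l => -q l, by simp⟩
  let I : TwoSidedIdeal A := TwoSidedIdeal.mk' (closure (Sm n a))
    (subset_closure ⟨0, 0, by simp⟩)
    (fun {x y} hx hy => closure_closure (s := Sm n a) ▸
      map_mem_closure₂ continuous_add hx hy fun _ hx _ hy => Sm_add h hx hy)
    (fun {x} hx => map_mem_closure continuous_neg hx g)
    (fun {x y} hy => map_mem_closure (continuous_const_mul x) hy (l x))
    (fun {x y} hx => map_mem_closure (f := fun x => x * y) (continuous_mul_const y) hx (r y))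
  have hI : (I : Set A) = closure (Sm n a) := TwoSidedIdeal.coe_mk' _ _ _ _ _ _
  intro x hx
  rw [← hI]
  refine hx I (hI ▸ isClosed_closure) ?_
  rw [← SetLike.mem_coe, hI]
  refine Metric.mem_closure_iff.2 fun ε hε => ?_
  obtain ⟨k, hk⟩ := approx a hε
  refine ⟨_, ⟨Pi.single ⟨0, hn⟩ a, Pi.single ⟨0, hn⟩ (a * k), rfl⟩, ?_⟩
  rw [Finset.sum_eq_single ⟨0, hn⟩ (fun b _ hb => by simp [hb]) (by simp), dist_eq_norm]
  simpa [ha.isSelfAdjoint.star_eq, mul_assoc] using hk

theorem mem_Sm {n : ℕ} (hn : 1 ≤ n) {a c f k : A} (ha : 0 ≤ a) (h : PInf n a) (hc : c ∈ Idl a)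
    (hf : f = f * c * k) : f ∈ Sm n a := by
  obtain ⟨d, ⟨p, q, rfl⟩, hd⟩ := Metric.mem_closure_iff.1 (Idl_sub hn ha h hc) (1 / (‖k‖ + 1))
    (by positivity)
  rw [dist_eq_norm, lt_div_iff₀ (by positivity)] at hd
  obtain ⟨z, hz⟩ := exact_of_near (d := ∑ l, star (p l) * a * q l) hf
    (by nlinarith [norm_nonneg (c - ∑ l, star (p l) * a * q l)])
  refine ⟨fun l => p l * star f, fun l => q l * z, hz.trans ?_⟩
  simp [Finset.mul_sum, Finset.sum_mul, mul_assoc]

end Vale.Agent.P133
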