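import Vale.Agent.P133.Defs

namespace Vale.Agent.P133

variable {A : Type*} [NonUnitalCStarAlgebra A]

/-- the condition of strong pure infiniteness for the pair `x`, `y` -/
def Strong (x y : A) : Prop :=
  ∀ ε : ℝ, 0 < ε → ∃ s t : A, ‖star s * (x * x) * s - x * x‖ < ε ∧
    ‖star t * (y * y) * t - y * y‖ < ε ∧ ‖star s * (x * y) * t‖ < ε

/-- `x` is a limit of elements of ideals generated by projections from the ideal of `x` -/
def ProjGen (x : A) : Prop :=
  ∀ ε : ℝ, 0 < ε → ∃ q ∈ Idl x, star q = q ∧ q * q = q ∧ ∃ c ∈ Idl q, ‖x - c‖ < ε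

end Vale.Agent.P133
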