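import Mathlib

namespace Vale.Agent.P133

variable {A : Type*} [NonUnitalCStarAlgebra A]

/-- The closed two-sided ideal generated by `b`. -/
def Idl (b : A) : Set A := {x | ∀ I : TwoSidedIdeal A, IsClosed (I : Set A) → b ∈ I → x ∈ I}

/-- The hereditary subalgebra generated by `h`. -/
def her (h : A) : Set A := closure (Set.range fun x => h * x * h)

/-- The `n`-fold amplification `H` of `h` is properly infinite: `X* H X` approximates `H ⊕ H`
entrywise, for `n × 2n` matrices `X`. -/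
def PInf (n : ℕ) (h : A) : Prop :=
  ∀ ε : ℝ, 0 < ε → ∃ X : Fin n → Fin n ⊕ Fin n → A, ∀ j k,
    ‖∑ i, star (X i j) * h * X i k - if j = k then h else 0‖ < ε

variable (A) [PartialOrder A]

/-- purely infinite -/
def PurelyInf : Prop := ∀ h : A, 0 ≤ h → PInf 1 h

/-- weakly purely infinite -/
def WeaklyPurelyInf : Prop := ∃ n, 1 ≤ n ∧ ∀ h : A, 0 ≤ h → PInf n h

/-- every hereditary subalgebra contains two orthogonal almost full positive elements -/
def Split : Prop :=
  ∀ h : A, 0 ≤ h → ∀ ε : ℝ, 0 < ε → ∃ b₁ ∈ her h, ∃ b₂ ∈ her h, 0 ≤ b₁ ∧ 0 ≤ b₂ ∧ b₁ * b₂ = 0 ∧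
    (∃ c ∈ Idl b₁, ‖h - c‖ < ε) ∧ ∃ c ∈ Idl b₂, ‖h - c‖ < ε

omit [PartialOrder A] in
/-- no quotient by a closed two-sided ideal contains a nonzero projection -/
def NoProj : Prop :=
  ∀ I : TwoSidedIdeal A, IsClosed (I : Set A) → ∀ p : A, star p = p → p * p - p ∈ I → p ∈ I

end Vale.Agent.P133
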