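import Vale.Agent.P133.Proj
import Vale.Agent.P133.Def2

namespace Vale.Agent.P133

variable {A : Type*} [NonUnitalCStarAlgebra A] [PartialOrder A] [StarOrderedRing A]

theorem split_of_pi (hp : PurelyInf A) : Split A := by
  intro h h0 ε hε
  have hs := h0.isSelfAdjoint.star_eq
  have c0 : 0 ≤ h * h := by simpa only [hs] using star_mul_self_nonneg h
  obtain ⟨l, hl⟩ := approx h (ε := ε / 2) (by positivity)
  rw [hs] at hl
  obtain ⟨η, η0, hη⟩ : ∃ η : ℝ, 0 < η ∧ η * (‖h‖ * ‖l‖ + 1) = ε / 2 :=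
    ⟨ε / 2 / (‖h‖ * ‖l‖ + 1), by positivity, by field_simp⟩
  obtain ⟨f, k, f0, f1, f2, -⟩ := cut c0 η0
  obtain ⟨x₁, x₂, o, i1, i2⟩ := gram hs (hp _ c0) f0.isSelfAdjoint.star_eq f1
  have i : ∀ s : A, s ∈ Idl (s * star s) := fun s I hI h => by
    simpa using star_mem' hI (mem_of_sq hI (x := star s) (by rwa [star_star]))
  have m : ∀ x, h * x * f * star (h * x * f) ∈ her h := fun x =>
    subset_closure ⟨x * f * star (x * f), by simp only [star_mul, hs, mul_assoc]⟩
  have n : ‖h - h * f * l‖ < ε := by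
    have a := (norm_mul_le (h * (h * h - f)) l).trans (mul_le_mul_of_nonneg_right
      ((norm_mul_le _ _).trans (mul_le_mul_of_nonneg_left f2 (norm_nonneg _))) (norm_nonneg _))
    rw [mul_sub, sub_mul] at a
    nlinarith [norm_sub_le_norm_sub_add_norm_sub h (h * (h * h) * l) (h * f * l)]
  have j : h * f * l ∈ Idl f := fun I _ hf => I.mul_mem_right _ _ (I.mul_mem_left _ _ hf)
  refine ⟨_, m x₁, _, m x₂, mul_star_self_nonneg _, mul_star_self_nonneg _, ?_,
    ⟨_, Idl_trans j (Idl_trans i1 (i _)), n⟩, _, Idl_trans j (Idl_trans i2 (i _)), n⟩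
  rw [mul_assoc, ← mul_assoc (star _), o, zero_mul, mul_zero]

theorem piso (hp : PurelyInf A) {x q : A} (q1 : star q = q) (q2 : q * q = q) (hq : q ∈ Idl x) :
    ∃ w ∈ closure (Set.range fun r => x * r), star w * w = q ∧ w * q = w := by
  have q0 : 0 ≤ q := by simpa only [q1, q2] using star_mul_self_nonneg q
  have np : ‖q‖ ≤ 1 := by
    have := CStarRing.norm_star_mul_self (x := q)
    rw [q1, q2] at this
    nlinarith [norm_nonneg q]
  obtain ⟨w, w1, w2⟩ := vec hp q0 hq one_pos
  obtain ⟨b, hb⟩ : ∃ b, b = q * sq w * q := ⟨_, rfl⟩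
  have b0 : 0 ≤ b := by simpa only [q1, hb] using star_left_conjugate_nonneg (sq_nonneg w) q
  have qb : q * b = b := by rw [hb, ← mul_assoc, ← mul_assoc, q2]
  have bq : b * q = b := by rw [hb, mul_assoc, q2]
  obtain ⟨z, hz⟩ := exact_of_near (f := q) (c := q) (k := q) (d := b) (by rw [q2, q2]) (by
    have e : q - b = q * (q - sq w) * q := by rw [mul_sub, sub_mul, q2, q2, hb]
    have a := (norm_mul_le (q * (q - sq w)) q).trans (mul_le_of_le_one_right (norm_nonneg _) np)
    have a' := (norm_mul_le q (q - sq w)).trans (mul_le_of_le_one_left (norm_nonneg _) np)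
    rw [← e] at a
    linarith [mul_le_of_le_one_right (norm_nonneg (q - b)) np])
  obtain ⟨u, hu⟩ : ∃ u, u = q * z * q := ⟨_, rfl⟩
  have bu : b * u = q := by
    rw [hu, ← mul_assoc, ← mul_assoc, bq, ← qb, ← hz, q2]
  have ub : star u * b = q := by
    simpa only [star_mul, q1, b0.isSelfAdjoint.star_eq] using congrArg star bu
  have u0 : 0 ≤ u := by
    have := star_left_conjugate_nonneg b0 u
    rwa [ub, hu, ← mul_assoc, ← mul_assoc, q2, ← hu] at this
  rw [u0.isSelfAdjoint.star_eq] at ub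
  have c : Commute (CFC.sqrt u) b := Commute.cfcₙ_nnreal (ub.trans bu.symm) _
  have e : star (w * q * CFC.sqrt u) * (w * q * CFC.sqrt u) = q := by
    have : star (w * q * CFC.sqrt u) * (w * q * CFC.sqrt u) = CFC.sqrt u * b * CFC.sqrt u := by
      simp only [star_mul, q1, (CFC.sqrt_nonneg u).isSelfAdjoint.star_eq, hb, sq, mul_assoc]
    rw [this, c.eq, mul_assoc, CFC.sqrt_mul_sqrt_self u u0, bu]
  refine ⟨w * q * CFC.sqrt u, (RI_range x).mul _ ((RI_range x).mul _ w1 _) _, e, ?_⟩
  obtain ⟨v, hv⟩ : ∃ v, v = w * q * CFC.sqrt u := ⟨_, rfl⟩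
  rw [← hv] at e ⊢
  rw [← sub_eq_zero, ← CStarRing.star_mul_self_eq_zero_iff]
  have : ∀ a, star v * (v * a) = q * a := fun a => by rw [← mul_assoc, e]
  simp only [star_sub, star_mul, q1, mul_sub, sub_mul, mul_assoc, this, e, q2, sub_self]

theorem strong_of (hp : PurelyInf A) {x y : A} (x0 : 0 ≤ x) (y0 : 0 ≤ y) (hx : ProjGen x) :
    Strong x y := by
  intro ε hε
  have xs := x0.isSelfAdjoint.star_eq
  have U0 : IsOpen {c : A | ‖sq c - x * x‖ < ε / 3} :=
    isOpen_lt (by unfold sq; fun_prop) continuous_const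
  obtain ⟨η, η0, hη⟩ := Metric.isOpen_iff.1 U0 x (by simpa [sq, xs] using hε)
  obtain ⟨q, hq, q1, q2, c, c1, c2⟩ := hx η η0
  have c3 : ‖sq c - x * x‖ < ε / 3 := hη (mem_ball_iff_norm'.2 c2)
  obtain ⟨w, w1, w2, w3⟩ := piso hp q1 q2 hq
  obtain ⟨z, z1, z2⟩ := vec hp (sq_nonneg c) (u := q)
    (fun I hI h => I.mul_mem_left _ _ (c1 I hI h)) (ε := ε / 3) (by positivity)
  have qz : q * z = z := by
    refine closure_minimal (t := {w | q * w = w}) ?_
      (isClosed_eq (by fun_prop) continuous_id) z1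
    rintro _ ⟨r, rfl⟩
    simp only [Set.mem_setOf_eq, ← mul_assoc, q2]
  have p1 : star (w * star w) = w * star w := by rw [star_mul, star_star]
  have p2 : w * star w * (w * star w) = w * star w := by
    rw [mul_assoc, ← mul_assoc (star w), w2, ← mul_assoc, w3]
  obtain ⟨K, hK⟩ : ∃ K, K = ‖w * z‖ := ⟨_, rfl⟩
  have K0 : 0 ≤ K := hK ▸ norm_nonneg _
  obtain ⟨δ, δ0, hδ⟩ : ∃ δ : ℝ, 0 < δ ∧ δ * (K * K + K + 1) = ε / 3 :=
    ⟨ε / 3 / (K * K + K + 1), by positivity, by field_simp⟩
  have KK := mul_nonneg K0 K0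
  obtain ⟨s, t, a1, a2, a3⟩ := one_proj hp p1 p2 y0 δ0
  have e1 : star (w * z) * (w * star w * (w * star w)) * (w * z) = sq z := by
    have : ∀ u, star w * (w * u) = q * u := fun u => by rw [← mul_assoc, w2]
    have h2 : ∀ u, w * (q * u) = w * u := fun u => by rw [← mul_assoc, w3]
    simp only [star_mul, mul_assoc, this, h2, qz, sq]
  have b1 : ‖sq (w * star w * s * (w * z)) - x * x‖ < ε := by
    have e : sq (w * star w * s * (w * z)) - sq z = star (w * z) *
        (star s * (w * star w * (w * star w)) * s - w * star w * (w * star w)) * (w * z) := by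
      rw [mul_sub, sub_mul, e1]
      simp only [sq, star_mul, star_star, mul_assoc]
    have n := (norm_mul_le _ _).trans (mul_le_mul_of_nonneg_right ((norm_mul_le (star (w * z))
      _).trans (mul_le_mul_of_nonneg_left a1.le (norm_nonneg _))) (norm_nonneg (w * z)))
    rw [← e, norm_star, ← hK] at n
    rw [norm_sub_rev] at z2
    nlinarith [norm_sub_le_norm_sub_add_norm_sub (sq (w * star w * s * (w * z))) (sq z) (x * x),
      norm_sub_le_norm_sub_add_norm_sub (sq z) (sq c) (x * x), mul_nonneg δ0.le K0]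
  have b2 : ‖star (w * star w * s * (w * z)) * (y * t)‖ < ε := by
    have e : star (w * star w * s * (w * z)) * (y * t) =
        star (w * z) * (star s * (w * star w * y) * t) := by
      simp only [star_mul, star_star, mul_assoc]
    have n := (norm_mul_le (star (w * z)) _).trans (mul_le_mul_of_nonneg_left a3.le (norm_nonneg _))
    rw [← e, norm_star, ← hK] at n
    nlinarith [mul_nonneg δ0.le KK]
  have U1 : IsOpen {v : A | ‖sq v - x * x‖ < ε} :=
    isOpen_lt (by unfold sq; fun_prop) continuous_const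
  have U2 : IsOpen {v : A | ‖star v * (y * t)‖ < ε} := isOpen_lt (by fun_prop) continuous_const
  obtain ⟨_, ⟨t1, t2⟩, r, rfl⟩ := mem_closure_iff.1 ((RI_range x).mul _ ((RI_range x).mul _
    ((RI_range x).mul _ w1 (star w)) s) (w * z)) _ (U1.inter U2) ⟨b1, b2⟩
  simp only [Set.mem_setOf_eq] at t1 t2
  refine ⟨r, t, ?_, by nlinarith [mul_nonneg δ0.le KK, mul_nonneg δ0.le K0], ?_⟩
  · simpa only [sq, star_mul, xs, mul_assoc] using t1
  · simpa only [star_mul, xs, mul_assoc] using t2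

end Vale.Agent.P133
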