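import Vale.Agent.P133.Trick

namespace Vale.Agent.P133

variable {A : Type*} [NonUnitalCStarAlgebra A]

/-- closed right ideals -/
structure RI (R : Set A) : Prop where
  cl : IsClosed R
  zero : 0 ∈ R
  add : ∀ x ∈ R, ∀ y ∈ R, x + y ∈ R
  mul : ∀ x ∈ R, ∀ y, x * y ∈ R

theorem RI.sum {R : Set A} (h : RI R) {ι : Type*} (s : Finset ι) {x : ι → A}
    (hx : ∀ i ∈ s, x i ∈ R) : ∑ i ∈ s, x i ∈ R :=
  Finset.sum_induction x (· ∈ R) (fun a b ha hb => h.add a ha b hb) h.zero hx

/-- double annihilator inside `P` -/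
def DA (P T : Set A) : Set A :=
  {x | x ∈ P ∧ ∀ z, (∀ t ∈ T, star t * z = 0) → star x * z = 0}

theorem DA_RI {P : Set A} (h : RI P) (T : Set A) : RI (DA P T) where
  cl := h.cl.inter (show IsClosed {x : A | ∀ z, (∀ t ∈ T, star t * z = 0) → star x * z = 0} by
    simp only [Set.setOf_forall]
    exact isClosed_iInter fun z => isClosed_iInter fun _ =>
      isClosed_eq (by fun_prop) continuous_const)
  zero := ⟨h.zero, fun z _ => by simp⟩
  add x hx y hy := ⟨h.add x hx.1 y hy.1, fun z hz => by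
    rw [star_add, add_mul, hx.2 z hz, hy.2 z hz, add_zero]⟩
  mul x hx y := ⟨h.mul x hx.1 y, fun z hz => by
    rw [star_mul, mul_assoc, hx.2 z hz, mul_zero]⟩

theorem mem_DA {P T : Set A} {x : A} (h : x ∈ P) (h' : x ∈ T) : x ∈ DA P T :=
  ⟨h, fun _ hz => hz x h'⟩

theorem DA_mono {P T T' : Set A} (h : T ⊆ T') : DA P T ⊆ DA P T' :=
  fun _ hx => ⟨hx.1, fun z hz => hx.2 z fun t ht => hz t (h ht)⟩

theorem star_orth {x y : A} (h : star x * y = 0) : star y * x = 0 := by
  simpa using congrArg star h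

theorem DA_orth {P T T' : Set A} (h : ∀ t ∈ T, ∀ t' ∈ T', star t * t' = 0) {x y : A}
    (hx : x ∈ DA P T) (hy : y ∈ DA P T') : star x * y = 0 :=
  hx.2 y fun t ht => star_orth (hy.2 t fun t' ht' => star_orth (h t ht t' ht'))

theorem RI_range (h : A) : RI (closure (Set.range fun x => h * x)) where
  cl := isClosed_closure
  zero := subset_closure ⟨0, mul_zero h⟩
  add _ hx _ hy := map_mem_closure₂ continuous_add hx hy (by
    rintro _ ⟨x, rfl⟩ _ ⟨y, rfl⟩
    exact ⟨x + y, mul_add _ _ _⟩)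
  mul _ hx y := map_mem_closure (f := fun x => x * y) (continuous_mul_const y) hx (by
    rintro _ ⟨x, rfl⟩
    exact ⟨x * y, (mul_assoc _ _ _).symm⟩)

variable [PartialOrder A] [StarOrderedRing A]

theorem RI.sqrt {R : Set A} (h : RI R) {a : A} (ha : 0 ≤ a) (hR : a ∈ R) : CFC.sqrt a ∈ R := by
  refine h.cl.closure_subset (Metric.mem_closure_iff.2 fun ε hε => ?_)
  obtain ⟨k, hk⟩ := approx (CFC.sqrt a) hε
  refine ⟨_, h.mul _ hR (CFC.sqrt a * k), ?_⟩
  rw [(CFC.sqrt_nonneg a).isSelfAdjoint.star_eq, ← mul_assoc, CFC.sqrt_mul_sqrt_self a ha,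
    mul_assoc] at hk
  rwa [dist_eq_norm]

/-- families of equivalent orthogonal elements -/
def Fam (R : Set A) {κ : Type} (r : ℕ) (a : κ → A) : Prop :=
  ∃ t : κ → Fin (r + 1) → A, (∀ k j, t k j ∈ R) ∧ (∀ k j, star (t k j) * t k j = a k) ∧
    ∀ k j k' j', (k, j) ≠ (k', j') → star (t k j) * t k' j' = 0

theorem ind {n : ℕ} (hn : 1 ≤ n) (hw : ∀ h : A, 0 ≤ h → PInf n h) {P : Set A} (hP : RI P)
    (r : ℕ) : ∀ (κ : Type) [Finite κ], ∃ ι : Type, Finite ι ∧ ∀ b : ι → A, (∀ i, 0 ≤ b i) →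
      (∀ i, b i ∈ P) → (∀ i j, i ≠ j → b i * b j = 0) → ∀ c : A, 0 ≤ c → (∀ i, c ∈ Idl (b i)) →
      ∀ ε : ℝ, 0 < ε → ∃ f, 0 ≤ f ∧ f ∈ Idl c ∧ ‖c - f‖ < ε ∧
        ∃ a : κ → A, Fam (DA P (Set.range b)) r a ∧ ∀ k, f ∈ Idl (a k) := by
  induction r with
  | zero =>
    refine fun κ hκ => ⟨κ, hκ, fun b b0 bP bo c c0 cb ε hε => ⟨c, c0, self_Idl c, by simpa,
      fun k => star (b k) * b k, ⟨fun k _ => b k, fun k _ => mem_DA (bP k) ⟨k, rfl⟩,
        fun _ _ => rfl, fun k j k' j' h => ?_⟩, fun k => Idl_trans (cb k) (Idl_sq _)⟩⟩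
    rw [(b0 k).isSelfAdjoint.star_eq]
    exact bo k k' fun e => h (Prod.ext e (Subsingleton.elim (α := Fin 1) _ _))
  | succ r ih =>
    intro κ _
    classical
    obtain ⟨ι, _, H⟩ := ih (κ × Fin n)
    refine ⟨ι ⊕ κ × (Fin n → Fin n), inferInstance, fun b b0 bP bo c c0 cb ε hε => ?_⟩
    obtain ⟨g, g0, gc, g1, a, ⟨t, t1, t2, t3⟩, ga⟩ := H (fun i => b (.inl i)) (fun _ => b0 _)
      (fun _ => bP _) (fun i j h => bo _ _ (Sum.inl_injective.ne h)) c c0 (fun _ => cb _) (ε / 2)
      (by positivity)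
    obtain ⟨f, κ', f0, f1, f2, -⟩ := cut g0 (ε := ε / 2) (by positivity)
    have a0 : ∀ k, 0 ≤ a k := fun k => t2 k 0 ▸ star_mul_self_nonneg _
    have bs : ∀ i, star (b i) = b i := fun i => (b0 i).isSelfAdjoint.star_eq
    choose y hy using fun k : κ => trick hn (fun i => a (k, i)) (fun w => b (.inr (k, w)))
      f0.isSelfAdjoint.star_eq
      (fun w w' h => bo _ _ (Sum.inr_injective.ne fun e => h (congrArg Prod.snd e)))
      (fun i => mem_Sm hn (a0 _) (hw _ (a0 _)) (ga _) f1) fun w => by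
        have e : 0 ≤ b (.inr (k, w)) * b (.inr (k, w)) := by
          simpa only [bs] using star_mul_self_nonneg (b (.inr (k, w)))
        refine mem_Sm hn e (hw _ e) (Idl_trans gc (Idl_trans (cb (.inr (k, w))) ?_)) f1
        simpa only [bs] using Idl_sq (b (.inr (k, w)))
    let z : κ → Fin n → A := fun k i => ∑ w, y k i w * b (.inr (k, w))
    let s : κ → Fin (r + 1) → A := fun k j => ∑ i, t (k, i) j * z k i
    let a' : κ → A := fun k => ∑ i, star (z k i) * a (k, i) * z k i
    have s0 : ∀ k i j k' j', star (t (k, i) j) * s k' j' =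
        if (k, j) = (k', j') then a (k, i) * z k i else 0 := fun k i j k' j' => by
      simp only [s, Finset.mul_sum, ← mul_assoc]
      split_ifs with h
      · obtain ⟨rfl, rfl⟩ := Prod.ext_iff.1 h
        rw [Finset.sum_eq_single i (fun i' _ hi => by
          rw [t3 _ _ _ _ fun e => hi (congrArg (fun x => x.1.2) e).symm, zero_mul]) (by simp), t2]
      · refine Finset.sum_eq_zero fun i' _ => ?_
        rw [t3 _ _ _ _ fun e => h (congrArg (fun x => (x.1.1, x.2)) e), zero_mul]
    have s1 : ∀ k j k' j', star (s k j) * s k' j' =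
        if (k, j) = (k', j') then a' k else 0 := fun k j k' j' => by
      have e : star (s k j) * s k' j' = ∑ i, star (z k i) * (star (t (k, i) j) * s k' j') := by
        nth_rewrite 1 [show s k j = ∑ i, t (k, i) j * z k i from rfl]
        simp only [star_sum, star_mul, Finset.sum_mul, mul_assoc]
      rw [e]
      simp only [s0]
      split_ifs with h
      · simp only [a', mul_assoc]
      · simp
    have s2 : ∀ k j, star (s k j) * s k j = a' k := fun k j => by rw [s1, if_pos rfl]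
    have a0' : ∀ k, 0 ≤ a' k := fun k => s2 k 0 ▸ star_mul_self_nonneg _
    have sm : ∀ k j, s k j ∈ DA P (Set.range fun i => b (.inl i)) := fun k j =>
      (DA_RI hP _).sum _ fun i _ => (DA_RI hP _).mul _ (t1 _ _) _
    have qm : ∀ k, CFC.sqrt (a' k) ∈ DA P (Set.range fun w => b (.inr (k, w))) := fun k => by
      refine (DA_RI hP _).sqrt (a0' k) ((DA_RI hP _).sum _ fun i _ =>
        (DA_RI hP _).mul _ ((DA_RI hP _).mul _ ?_ _) _)
      simp only [z, star_sum, star_mul, bs]
      exact (DA_RI hP _).sum _ fun w _ => (DA_RI hP _).mul _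
        (mem_DA (bP _) (Set.mem_range_self (f := fun w => b (.inr (k, w))) w)) _
    have o1 : ∀ k j k', star (s k j) * CFC.sqrt (a' k') = 0 := fun k j k' =>
      DA_orth (by
        rintro _ ⟨i, rfl⟩ _ ⟨w, rfl⟩
        rw [bs]
        exact bo _ _ Sum.inl_ne_inr) (sm k j) (qm k')
    refine ⟨f, f0, Idl_trans (fun I _ h => f1 ▸ I.mul_mem_right _ _ (I.mul_mem_left _ _ h)) gc,
      ?_, a', ⟨fun k => Fin.cons (CFC.sqrt (a' k)) (s k), fun k j => ?_, fun k j => ?_,
        fun k j k' j' h => ?_⟩, fun k I hI h => hy k I hI fun i => ?_⟩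
    · linarith [norm_sub_le_norm_sub_add_norm_sub c g f]
    · induction j using Fin.cases with
      | zero => exact DA_mono (by rintro _ ⟨w, rfl⟩; exact ⟨_, rfl⟩) (qm k)
      | succ j => exact DA_mono (by rintro _ ⟨w, rfl⟩; exact ⟨_, rfl⟩) (sm k j)
    · induction j using Fin.cases with
      | zero =>
        change star (CFC.sqrt (a' k)) * CFC.sqrt (a' k) = a' k
        rw [(CFC.sqrt_nonneg _).isSelfAdjoint.star_eq, CFC.sqrt_mul_sqrt_self _ (a0' k)]
      | succ j => exact s2 k j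
    · induction j using Fin.cases with
      | zero =>
        induction j' using Fin.cases with
        | zero =>
          refine DA_orth ?_ (qm k) (qm k')
          rintro _ ⟨w, rfl⟩ _ ⟨w', rfl⟩
          rw [bs]
          exact bo _ _ (Sum.inr_injective.ne fun e => h (by
            obtain rfl : k = k' := (Prod.ext_iff.1 e).1
            rfl))
        | succ j' => exact star_orth (o1 k' j' k)
      | succ j =>
        induction j' using Fin.cases with
        | zero => exact o1 k j k'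
        | succ j' =>
          exact (s1 k j k' j').trans (if_neg fun e => h (by
            obtain ⟨rfl, rfl⟩ := Prod.ext_iff.1 e
            rfl))
    · have := I.mul_mem_left (star (t (k, i) 0)) _ (mem_of_sq hI (x := s k 0) (by rwa [s2]))
      rwa [s0, if_pos rfl] at this

end Vale.Agent.P133
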