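import Vale.Agent.P133.Ind

namespace Vale.Agent.P133

open Filter Topology

variable {A : Type*} [NonUnitalCStarAlgebra A]

theorem her_sub {R : Set A} (hR : RI R) {h : A} (hh : h ∈ R) : her h ⊆ R :=
  closure_minimal (by
    rintro _ ⟨x, rfl⟩
    exact hR.mul _ (hR.mul _ hh _) _) hR.cl

variable [PartialOrder A] [StarOrderedRing A]

theorem many {n : ℕ} (hn : 1 ≤ n) (hw : ∀ h : A, 0 ≤ h → PInf n h) (hs : Split A) (K : ℕ) :
    ∀ h : A, 0 ≤ h → ∀ R, RI R → h ∈ R → ∀ ε : ℝ, 0 < ε → ∃ b : Fin K → A,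
      (∀ i, 0 ≤ b i ∧ b i ∈ R ∧ ∃ c ∈ Idl (b i), ‖h - c‖ < ε) ∧ ∀ i j, i ≠ j → b i * b j = 0 := by
  induction K with
  | zero => exact fun _ _ _ _ _ _ _ => ⟨Fin.elim0, fun i => i.elim0, fun i => i.elim0⟩
  | succ K ih =>
    intro h h0 R hR hh ε hε
    obtain ⟨b₁, m1, b₂, m2, p1, p2, o, c1, c, c2, c3⟩ := hs h h0 ε hε
    have U : IsOpen {x : A | ‖h - x‖ < ε} := isOpen_lt (by fun_prop) continuous_const
    obtain ⟨_, d1, p, q, rfl⟩ := mem_closure_iff.1 (Idl_sub hn p2 (hw _ p2) c2) _ U c3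
    have V : IsOpen {x : A | ‖h - ∑ l, star (p l) * x * q l‖ < ε} :=
      isOpen_lt (by fun_prop) continuous_const
    obtain ⟨δ, δ0, hδ⟩ := Metric.isOpen_iff.1 V b₂ d1
    obtain ⟨b, b1, b2⟩ := ih b₂ p2 _ (DA_RI hR {b₂}) (mem_DA (her_sub hR hh m2) rfl) δ δ0
    have o1 : ∀ i, star b₁ * b i = 0 := fun i =>
      DA_orth (T := {b₁}) (T' := {b₂}) (by
        rintro _ rfl _ rfl
        rwa [p1.isSelfAdjoint.star_eq]) (mem_DA (her_sub hR hh m1) rfl) (b1 i).2.1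
    refine ⟨Fin.cons b₁ b, fun i => ?_, fun i j hij => ?_⟩
    · induction i using Fin.cases with
      | zero => exact ⟨p1, her_sub hR hh m1, c1⟩
      | succ i =>
        obtain ⟨e1, e2, x, x1, x2⟩ := b1 i
        refine ⟨e1, e2.1, ∑ l, star (p l) * x * q l, fun I hI hb => sum_mem fun l _ =>
          I.mul_mem_right _ _ (I.mul_mem_left _ _ (x1 I hI hb)), hδ ?_⟩
        rwa [mem_ball_iff_norm']
    · induction i using Fin.cases with
      | zero =>
        induction j using Fin.cases with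
        | zero => exact absurd rfl hij
        | succ j => simpa [p1.isSelfAdjoint.star_eq] using o1 j
      | succ i =>
        induction j using Fin.cases with
        | zero => simpa [(b1 i).1.isSelfAdjoint.star_eq] using star_orth (o1 i)
        | succ j => exact b2 i j fun e => hij (congrArg _ e)

theorem sym_mem {r : ℕ} {R : Set A} (hR : RI R) {t : Fin (r + 1) → A} {a g : A}
    (t1 : ∀ j, t j ∈ R) (t2 : ∀ j, star (t j) * t j = a)
    (t3 : ∀ j j', j ≠ j' → star (t j) * t j' = 0) (ha : PInf (r + 1) a) (g0 : 0 ≤ g)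
    (hg : g ∈ Idl a) : g ∈ closure ((fun w => star w * w) '' R) := by
  have a0 : 0 ≤ a := t2 0 ▸ star_mul_self_nonneg _
  have e : star (CFC.sqrt g) * CFC.sqrt g = g := by
    rw [(CFC.sqrt_nonneg _).isSelfAdjoint.star_eq, CFC.sqrt_mul_sqrt_self _ g0]
  have d := Idl_sub (Nat.le_add_left 1 r) a0 ha (Idl_trans (Idl_sq (CFC.sqrt g)) (e.symm ▸ hg))
  rw [← e]
  refine map_mem_closure (f := fun w => star w * w) (by fun_prop) d ?_
  rintro _ ⟨p, q, rfl⟩
  obtain ⟨u, hu⟩ : ∃ u, u = ∑ l, t l * p l := ⟨_, rfl⟩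
  obtain ⟨v, hv⟩ : ∃ v, v = ∑ l, t l * q l := ⟨_, rfl⟩
  have uR : u ∈ R := hu ▸ hR.sum _ fun l _ => hR.mul _ (t1 l) _
  have uv : ∑ l, star (p l) * a * q l = star u * v := by
    rw [hu, hv, star_sum, Finset.sum_mul]
    refine Finset.sum_congr rfl fun l _ => ?_
    rw [star_mul, mul_assoc, mul_assoc, Finset.mul_sum, Finset.sum_eq_single l (fun l' _ h => by
      rw [← mul_assoc, t3 l l' h.symm, zero_mul]) (by simp), ← mul_assoc (star (t l)), t2]
  have s0 := mul_star_self_nonneg u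
  refine ⟨CFC.sqrt (u * star u) * v, hR.mul _ (hR.sqrt s0 (hR.mul _ uR _)) _, ?_⟩
  change star (CFC.sqrt (u * star u) * v) * (CFC.sqrt (u * star u) * v) =
    star (∑ l, star (p l) * a * q l) * ∑ l, star (p l) * a * q l
  rw [uv, star_mul, (CFC.sqrt_nonneg (u * star u)).isSelfAdjoint.star_eq, mul_assoc,
    ← mul_assoc (CFC.sqrt _), CFC.sqrt_mul_sqrt_self _ s0, star_mul, star_star]
  simp only [mul_assoc]

theorem main (hw : WeaklyPurelyInf A) (hs : Split A) : PurelyInf A := by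
  obtain ⟨n, hn, hw⟩ := hw
  obtain ⟨r, rfl⟩ : ∃ r, n = r + 1 := ⟨n - 1, by omega⟩
  intro h h0 ε hε
  have hP := RI_range h
  have hh : h ∈ closure (Set.range fun x => h * x) := by
    refine Metric.mem_closure_iff.2 fun δ hδ => ?_
    obtain ⟨k, hk⟩ := approx h hδ
    exact ⟨h * (star h * h * k), ⟨_, rfl⟩, by rwa [dist_eq_norm, ← mul_assoc]⟩
  obtain ⟨f, k, f0, f1, f2, -⟩ := cut h0 (ε := ε / 3) (by positivity)
  obtain ⟨ι, _, H⟩ := ind hn hw hP r (Fin 1 ⊕ Fin 1)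
  obtain ⟨K, ⟨e⟩⟩ := Finite.exists_equiv_fin ι
  obtain ⟨b, b1, b2⟩ := many hn hw hs K h h0 _ hP hh (1 / (‖k‖ + 1)) (by positivity)
  obtain ⟨g, g0, -, g1, a, ⟨t, t1, t2, t3⟩, ga⟩ := H (fun i => b (e i)) (fun i => (b1 _).1)
    (fun i => (b1 _).2.1) (fun i j hij => b2 _ _ (e.injective.ne hij)) f f0 (fun i => by
      obtain ⟨c, c1, c2⟩ := (b1 (e i)).2.2
      rw [lt_div_iff₀ (by positivity)] at c2
      obtain ⟨z, hz⟩ := exact_of_near (d := c) f1 (by nlinarith [norm_nonneg (h - c)])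
      exact fun I hI hb => hz ▸ I.mul_mem_right _ _ (I.mul_mem_left _ _ (c1 I hI hb)))
    (ε / 3) (by positivity)
  have W : ∀ j, ∃ w ∈ DA (closure (Set.range fun x => h * x)) (Set.range (t j)),
      ‖g - star w * w‖ < ε / 3 := fun j => by
    obtain ⟨_, ⟨w, w1, rfl⟩, w2⟩ := Metric.mem_closure_iff.1 (sym_mem (DA_RI hP (Set.range (t j)))
      (fun l => mem_DA (t1 j l).1 ⟨l, rfl⟩) (t2 j)
      (fun l l' hl => t3 j l j l' fun e => hl (congrArg Prod.snd e))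
      (hw _ (t2 j 0 ▸ star_mul_self_nonneg _)) g0 (ga j)) (ε / 3) (by positivity)
    exact ⟨w, w1, by rwa [dist_eq_norm] at w2⟩
  choose w w1 w2 using W
  choose x x1 x2 using fun j => mem_closure_iff_seq_limit.1 (w1 j).1
  choose y hy using x1
  have T : ∀ j k, ∀ᶠ m in atTop,
      ‖star (x j m) * x k m - if j = k then h else 0‖ < ε := fun j k => by
    refine ((((x2 j).star.mul (x2 k)).sub_const _).norm).eventually_lt_const ?_
    split_ifs with hjk
    · subst hjk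
      rw [norm_sub_rev]
      linarith [norm_sub_le_norm_sub_add_norm_sub h f (star (w j) * w j),
        norm_sub_le_norm_sub_add_norm_sub f g (star (w j) * w j), w2 j]
    · rw [DA_orth (by
        rintro _ ⟨l, rfl⟩ _ ⟨l', rfl⟩
        exact t3 _ _ _ _ fun e => hjk (congrArg Prod.fst e)) (w1 j) (w1 k)]
      simpa
  obtain ⟨m, hm⟩ := (eventually_all.2 fun j => eventually_all.2 (T j)).exists
  refine ⟨fun _ j => CFC.sqrt h * y j m, fun j k => ?_⟩
  have e' : ∀ z, CFC.sqrt h * (h * (CFC.sqrt h * z)) = h * (h * z) := fun z => by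
    have s := CFC.sqrt_mul_sqrt_self h h0
    obtain ⟨s', hs'⟩ : ∃ s', s' = CFC.sqrt h := ⟨_, rfl⟩
    rw [← hs'] at s ⊢
    rw [← s]
    simp only [mul_assoc]
  have := hm j k
  rw [← hy j m, ← hy k m] at this
  simpa only [Finset.univ_unique, Finset.sum_singleton, star_mul, h0.isSelfAdjoint.star_eq,
    (CFC.sqrt_nonneg h).isSelfAdjoint.star_eq, mul_assoc, e'] using this

theorem ramp (hp : NoProj A) {h : A} (h0 : 0 ≤ h) {s : ℝ} (hs : 0 < s) :
    ∃ φ : ℝ → ℝ, Continuous φ ∧ φ 0 = 0 ∧ (∀ t, t ≤ s ∨ 2 * s ≤ t → φ t = 0) ∧ cfcₙ φ h ∈ her h ∧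
      0 ≤ cfcₙ φ h ∧ ∃ c ∈ Idl (cfcₙ φ h), ‖h - c‖ ≤ 2 * s := by
  obtain ⟨ψ, c1, z, o, p0, p1⟩ : ∃ ψ : ℝ → ℝ, Continuous ψ ∧ (∀ t ≤ s, ψ t = 0) ∧
      (∀ t, 2 * s ≤ t → ψ t = 1) ∧ (∀ t, 0 ≤ ψ t) ∧ ∀ t, ψ t ≤ 1 := by
    refine ⟨fun t => min 1 (max 0 (t / s - 1)), by fun_prop, fun t ht => ?_, fun t ht => ?_,
      fun t => le_min zero_le_one (le_max_left _ _), fun t => min_le_left _ _⟩
    · have : t / s ≤ 1 := (div_le_one hs).2 ht
      simp only [max_eq_left (sub_nonpos.2 this), min_eq_right zero_le_one]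
    · have : 2 ≤ t / s := (le_div_iff₀ hs).2 ht
      exact min_eq_left (le_max_of_le_right (by linarith))
  have z0 := z 0 hs.le
  have m : ∀ t : ℝ, 0 < max t s := fun t => hs.trans_le (le_max_right _ _)
  have c2 : Continuous fun t => (ψ t - ψ t * ψ t) / (max t s) ^ 2 :=
    Continuous.div (by fun_prop) (by fun_prop) fun t => (pow_pos (m t) 2).ne'
  refine ⟨fun t => ψ t - ψ t * ψ t, by fun_prop, by simp [z0], fun t ht => ?_,
    subset_closure ⟨cfcₙ (fun t => (ψ t - ψ t * ψ t) / (max t s) ^ 2) h, ?_⟩,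
    cfcₙ_nonneg fun t _ => by nlinarith [p0 t, p1 t], cfcₙ ψ h * h, fun I hI hb => ?_, ?_⟩
  · rcases ht with ht | ht
    · simp [z t ht]
    · simp [o t ht]
  · have e : cfcₙ (fun t => t * ((ψ t - ψ t * ψ t) / (max t s) ^ 2) * t) h =
        h * cfcₙ (fun t => (ψ t - ψ t * ψ t) / (max t s) ^ 2) h * h := by
      rw [cfcₙ_mul (fun t => t * ((ψ t - ψ t * ψ t) / (max t s) ^ 2)) (fun t : ℝ => t) h
        (hf := (continuous_id.mul c2).continuousOn), cfcₙ_mul (fun t : ℝ => t) _ h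
        (hg := c2.continuousOn) (hg0 := by simp [z0]), cfcₙ_id' ℝ h]
    refine e.symm.trans (cfcₙ_congr fun t _ => ?_)
    rcases le_total t s with ht | ht
    · simp [z t ht]
    · have : t ≠ 0 := (hs.trans_le ht).ne'
      simp only [max_eq_left ht]
      field_simp
  · refine I.mul_mem_right _ _ (hp I hI _ (cfcₙ_predicate (R := ℝ) ψ h).star_eq ?_)
    rw [cfcₙ_sub ψ (fun t => ψ t * ψ t) h (hg0 := by simp [z0]), cfcₙ_mul ψ ψ h] at hb
    simpa using I.neg_mem hb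
  · have e : h - cfcₙ ψ h * h = cfcₙ (fun t => t - ψ t * t) h := by
      rw [cfcₙ_sub (fun t : ℝ => t) (fun t => ψ t * t) h, cfcₙ_mul ψ (fun t : ℝ => t) h,
        cfcₙ_id' ℝ h]
    rw [e]
    refine norm_cfcₙ_le fun t ht => ?_
    have := quasispectrum_nonneg_of_nonneg h h0 t ht
    rw [Real.norm_of_nonneg (by nlinarith [p1 t])]
    rcases le_total t (2 * s) with ht | ht
    · nlinarith [p0 t]
    · rw [o t ht]
      linarith

theorem split_of (hp : NoProj A) : Split A := by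
  intro h h0 ε hε
  obtain ⟨φ, a1, a2, a3, a4, a5, c, a6, a7⟩ := ramp hp h0 (s := ε / 10) (by positivity)
  obtain ⟨φ', b1, b2, b3, b4, b5, c', b6, b7⟩ := ramp hp h0 (s := ε / 5) (by positivity)
  refine ⟨_, a4, _, b4, a5, b5, ?_, ⟨c, a6, by linarith⟩, c', b6, by linarith⟩
  rw [← cfcₙ_mul φ φ' h, ← cfcₙ_zero ℝ h]
  refine cfcₙ_congr fun t _ => ?_
  rcases le_total t (ε / 5) with ht | ht
  · simp [b3 t (Or.inl ht)]
  · simp [a3 t (Or.inr (by linarith))]

end Vale.Agent.P133
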