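import Vale.Agent.P133.Main

namespace Vale.Agent.P133

variable {A : Type*} [NonUnitalCStarAlgebra A] [PartialOrder A] [StarOrderedRing A]

/-- the square of the absolute value -/
def sq (x : A) : A := star x * x

theorem sq_nonneg (x : A) : 0 ≤ sq x := star_mul_self_nonneg x

omit [PartialOrder A] [StarOrderedRing A] in
theorem sq_mul (x y : A) : sq (x * y) = star y * sq x * y := by
  simp only [sq, star_mul, mul_assoc]

theorem sq_mul_le (x y : A) {C : ℝ} (h : ‖x‖ ^ 2 ≤ C) : sq (x * y) ≤ C • sq y := by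
  rw [sq_mul]
  refine (CStarAlgebra.star_left_conjugate_le_norm_smul (sq_nonneg x).isSelfAdjoint).trans ?_
  refine smul_le_smul_of_nonneg_right ?_ (sq_nonneg y)
  rwa [sq, CStarRing.norm_star_mul_self, ← pow_two]

theorem norm_le_of_sq {x y : A} {C : ℝ} (hC : 0 ≤ C) (h : sq x ≤ C • sq y) :
    ‖x‖ ^ 2 ≤ C * ‖y‖ ^ 2 := by
  have := CStarAlgebra.norm_le_norm_of_nonneg_of_le (sq_nonneg x) h
  rwa [norm_smul, Real.norm_of_nonneg hC, sq, sq, CStarRing.norm_star_mul_self,
    CStarRing.norm_star_mul_self, ← pow_two, ← pow_two] at this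

theorem approx2 (x : A) {ε : ℝ} (hε : 0 < ε) :
    ∃ k, ‖x - x * (sq x * k)‖ < ε ∧ ‖sq x * k‖ ≤ 1 := by
  obtain ⟨f, k, f0, f1, f2, f3⟩ := cut (sq_nonneg x) (ε := ε ^ 2 / 8) (by positivity)
  refine ⟨k, ?_, f3⟩
  obtain ⟨e, he⟩ : ∃ e, e = sq x * k := ⟨_, rfl⟩
  obtain ⟨g, hg⟩ : ∃ g, g = sq x - f := ⟨_, rfl⟩
  rw [mul_assoc f, ← he] at f1
  rw [← he] at f3
  rw [← hg] at f2
  have f4 : f = star e * f := by
    have := congrArg star f1
    rwa [star_mul, f0.isSelfAdjoint.star_eq] at this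
  have a : star x * x = g + f := by rw [hg, sub_add_cancel, sq]
  have i : star (x - x * e) * (x - x * e) = g - g * e - star e * g + star e * g * e := by
    have : star (x - x * e) * (x - x * e) = star x * x - star x * x * e - star e * (star x * x) +
        star e * (star x * x) * e := by
      simp only [star_sub, star_mul, mul_sub, sub_mul, mul_assoc]
      abel
    rw [this, a]
    simp only [mul_add, add_mul, ← f1, ← f4]
    abel
  have n1 := (norm_mul_le g e).trans (mul_le_of_le_one_right (norm_nonneg _) f3)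
  have n2 := (norm_mul_le (star e) g).trans
    (mul_le_of_le_one_left (norm_nonneg _) ((norm_star e).trans_le f3))
  have n3 := (norm_mul_le (star e * g) e).trans (mul_le_of_le_one_right (norm_nonneg _) f3)
  have n4 := norm_add_le (g - g * e - star e * g) (star e * g * e)
  have n5 := norm_sub_le (g - g * e) (star e * g)
  have n6 := norm_sub_le g (g * e)
  rw [← i, CStarRing.norm_star_mul_self] at n4
  rw [← he]
  refine lt_of_mul_self_lt_mul_self₀ hε.le ?_
  nlinarith [sq_pos_of_pos hε]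

variable {I : TwoSidedIdeal A}

theorem star_mem' (hI : IsClosed (I : Set A)) {x : A} (h : x ∈ I) : star x ∈ I :=
  mem_of_sq hI (by rw [star_star]; exact I.mul_mem_right _ _ h)

theorem smul_mem' (hI : IsClosed (I : Set A)) (c : ℝ) {x : A} (h : x ∈ I) : c • x ∈ I :=
  mem_of_sq hI (by rw [mul_smul_comm, ← smul_mul_assoc]; exact I.mul_mem_left _ _ h)

theorem her_mem (hI : IsClosed (I : Set A)) {b q : A} (hq : 0 ≤ q) (h : sq b + q ∈ I) :
    b ∈ I := by
  have S0 := add_nonneg (sq_nonneg b) hq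
  have e : sq (CFC.sqrt (sq b + q)) = sq b + q := by
    rw [sq, (CFC.sqrt_nonneg _).isSelfAdjoint.star_eq, CFC.sqrt_mul_sqrt_self _ S0]
  refine hI.closure_subset (Metric.mem_closure_iff.2 fun ε hε => ?_)
  obtain ⟨k, hk, -⟩ := approx2 (CFC.sqrt (sq b + q)) hε
  rw [e] at hk
  refine ⟨_, I.mul_mem_left b _ (I.mul_mem_right _ k h), ?_⟩
  obtain ⟨d, hd⟩ : ∃ d, d = (sq b + q) * k := ⟨_, rfl⟩
  rw [← hd] at hk ⊢
  have e' : sq (CFC.sqrt q) = q := by
    rw [sq, (CFC.sqrt_nonneg _).isSelfAdjoint.star_eq, CFC.sqrt_mul_sqrt_self _ hq]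
  have T : ∀ x : A, sq (x - x * d) = sq x - sq x * d - star d * sq x + star d * sq x * d := by
    intro x
    simp only [sq, star_sub, star_mul, mul_sub, sub_mul, mul_assoc]
    abel
  have l : sq (b - b * d) ≤ (1 : ℝ) • sq (CFC.sqrt (sq b + q) - CFC.sqrt (sq b + q) * d) := by
    have := sq_nonneg (CFC.sqrt q - CFC.sqrt q * d)
    rw [T, e'] at this
    rw [one_smul, T, T, e, ← sub_nonneg]
    refine this.trans_eq ?_
    simp only [mul_add, add_mul]
    abel
  have := norm_le_of_sq zero_le_one l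
  rw [dist_eq_norm]
  refine lt_of_le_of_lt (le_of_sq_le_sq' ?_) hk
  linarith
where le_of_sq_le_sq' {a b : A} (h : ‖a‖ ^ 2 ≤ ‖b‖ ^ 2) : ‖a‖ ≤ ‖b‖ :=
  (pow_le_pow_iff_left₀ (norm_nonneg _) (norm_nonneg _) two_ne_zero).1 h

/-- nonpositive modulo the ideal -/
def Ng (I : TwoSidedIdeal A) (x : A) : Prop := ∃ q, 0 ≤ q ∧ x + q ∈ I

theorem Ng.fin (hI : IsClosed (I : Set A)) {b x y j : A} {c c' : ℝ} (h : Ng I (c • x - y))
    (hc : c' < c) (hj : j ∈ I) (hj' : x - sq b ∈ I) (hy : y ≤ c' • sq b + j) : b ∈ I := by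
  obtain ⟨q, q0, h⟩ := h
  have c0 : 0 < c - c' := sub_pos.2 hc
  refine her_mem hI (q := (c - c')⁻¹ • (q + (c' • sq b + j - y)))
    (smul_nonneg (by positivity) (add_nonneg q0 (sub_nonneg.2 hy))) ?_
  have := smul_mem' hI (c - c')⁻¹ (I.add_mem (I.sub_mem h (smul_mem' hI c hj')) hj)
  have e : sq b = (c - c')⁻¹ • ((c - c') • sq b) := by rw [inv_smul_smul₀ c0.ne']
  rw [e, ← smul_add]
  rw [← e]
  refine (congrArg (· ∈ I) (congrArg _ ?_)).mp this
  module

/-- the part of the range of `G` on which `c` is small -/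
noncomputable def low (G c : A) (δ : ℝ) : A := G * (δ • sq G - sq (c * G))⁺

theorem low_sa (G c : A) (δ : ℝ) : IsSelfAdjoint (δ • sq G - sq (c * G)) :=
  ((IsSelfAdjoint.all δ).smul (sq_nonneg G).isSelfAdjoint).sub (sq_nonneg _).isSelfAdjoint

omit [PartialOrder A] [StarOrderedRing A] in
theorem low_conj (G c a : A) (δ : ℝ) : star a * (δ • sq G - sq (c * G)) * a =
    δ • sq (G * a) - sq (c * (G * a)) := by
  simp only [sq, star_mul, mul_sub, sub_mul, mul_smul_comm, smul_mul_assoc, mul_assoc]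

theorem low_cube (G c : A) (δ : ℝ) : δ • sq (low G c δ) - sq (c * low G c δ) =
    star (δ • sq G - sq (c * G))⁺ * (δ • sq G - sq (c * G))⁺ * (δ • sq G - sq (c * G))⁺ := by
  rw [low, ← low_conj]
  obtain ⟨D, hD⟩ : ∃ D, D = δ • sq G - sq (c * G) := ⟨_, rfl⟩
  have := CFC.posPart_sub_negPart _ (low_sa G c δ)
  rw [← hD] at this ⊢
  nth_rewrite 2 [← this]
  rw [mul_sub, sub_mul, mul_assoc _ D⁻, CFC.negPart_mul_posPart, mul_zero, sub_zero]

theorem low_le (G c : A) (δ : ℝ) {v : A} (hv : v ∈ closure (Set.range fun r => low G c δ * r)) :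
    sq (c * v) ≤ δ • sq v := by
  have C : IsClosed {v : A | 0 ≤ δ • sq v - sq (c * v)} :=
    CStarAlgebra.isClosed_nonneg.preimage (by unfold sq; fun_prop)
  refine sub_nonneg.1 (closure_minimal ?_ C hv)
  rintro _ ⟨r, rfl⟩
  change 0 ≤ δ • sq (low G c δ * r) - sq (c * (low G c δ * r))
  rw [← low_conj, low_cube]
  exact star_left_conjugate_nonneg (star_left_conjugate_nonneg (CFC.posPart_nonneg _) _) _

theorem low_le' (G c : A) (δ : ℝ) : sq (c * low G c δ) ≤ δ • sq (low G c δ) := by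
  rw [← sub_nonneg, low_cube]
  exact star_left_conjugate_nonneg (CFC.posPart_nonneg _) _

theorem low_ng (hI : IsClosed (I : Set A)) {G c : A} {δ : ℝ} (h : low G c δ ∈ I) (a : A) :
    Ng I (δ • sq (G * a) - sq (c * (G * a))) := by
  have h1 : δ • sq (low G c δ) - sq (c * low G c δ) ∈ I :=
    I.sub_mem (smul_mem' hI δ (I.mul_mem_left _ _ h)) (I.mul_mem_left _ _ (I.mul_mem_left _ _ h))
  rw [low_cube] at h1
  obtain ⟨D, hD⟩ : ∃ D, D = δ • sq G - sq (c * G) := ⟨_, rfl⟩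
  have e := CFC.posPart_sub_negPart _ (low_sa G c δ)
  rw [← low_conj]
  rw [← hD] at e h1 ⊢
  have s := (CFC.posPart_nonneg D).isSelfAdjoint.star_eq
  have h2 : D⁺ ∈ I := mem_of_sq hI (mem_of_sq hI (by
    rw [star_mul, star_star, ← mul_assoc]
    exact I.mul_mem_right _ _ (by rwa [s] at h1 ⊢)))
  refine ⟨star a * D⁻ * a, star_left_conjugate_nonneg (CFC.negPart_nonneg D) a, ?_⟩
  rw [← add_mul, ← mul_add, eq_add_of_sub_eq e |>.symm]
  exact I.mul_mem_right _ _ (I.mul_mem_left _ _ h2)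

omit [PartialOrder A] [StarOrderedRing A] in
theorem exact_norm {f c k d z : A} (hz : k + z * ((c - d) * k) = z) (hf : f = f * c * k)
    (h : ‖c - d‖ * ‖k‖ < 1) : f = f * d * z := by
  have hq : ‖(c - d) * k‖ < 1 := (norm_mul_le _ _).trans_lt h
  have e : f * d * z - f = (f * d * z - f) * ((c - d) * k) := by
    have e1 : f * d * z = f * d * k + f * d * z * ((c - d) * k) := by
      conv_lhs => rw [← hz]
      simp only [mul_add, mul_assoc]
    have e2 : f * ((c - d) * k) = f - f * d * k := by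
      rw [sub_mul, mul_sub, ← mul_assoc, ← hf, mul_assoc]
    rw [sub_mul, e2]
    conv_lhs => rw [e1]
    abel
  have e3 := norm_mul_le (f * d * z - f) ((c - d) * k)
  rw [← e] at e3
  have e4 : ‖f * d * z - f‖ = 0 := by nlinarith [norm_nonneg (f * d * z - f)]
  exact (sub_eq_zero.1 (norm_eq_zero.1 e4)).symm

omit [PartialOrder A] [StarOrderedRing A] in
theorem exact_bd {f c k d : A} (hf : f = f * c * k) (h : ‖c - d‖ * ‖k‖ ≤ 1 / 2) :
    ∃ z, f = f * d * z ∧ ‖z‖ ≤ 2 * ‖k‖ := by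
  have hq : ‖(c - d) * k‖ ≤ 1 / 2 := (norm_mul_le _ _).trans h
  have C : ContractingWith ‖(c - d) * k‖₊ fun z : A => k + z * ((c - d) * k) := by
    refine ⟨hq.trans_lt (by norm_num), LipschitzWith.of_dist_le_mul fun x y => ?_⟩
    rw [dist_eq_norm, dist_eq_norm, add_sub_add_left_eq_sub, ← sub_mul, mul_comm]
    exact norm_mul_le _ _
  obtain ⟨z, hz⟩ : ∃ z : A, k + z * ((c - d) * k) = z := ⟨_, C.fixedPoint_isFixedPt⟩
  refine ⟨z, exact_norm hz hf (by linarith), ?_⟩
  have a := norm_add_le k (z * ((c - d) * k))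
  rw [hz] at a
  nlinarith [norm_mul_le z ((c - d) * k), norm_nonneg z]

theorem gram {y f k : A} (hy : star y = y) (h : PInf 1 (y * y)) (f0 : star f = f)
    (hf : f = f * (y * y) * k) : ∃ x₁ x₂, star (y * x₁ * f) * (y * x₂ * f) = 0 ∧
      f ∈ Idl (y * x₁ * f) ∧ f ∈ Idl (y * x₂ * f) := by
  obtain ⟨K, hK⟩ : ∃ K, K = ‖k‖ + 1 := ⟨_, rfl⟩
  have k0 := norm_nonneg k
  have K0 : 0 < K := by linarith
  obtain ⟨η, η0, hη⟩ : ∃ η : ℝ, 0 < η ∧ η * K = 1 / 4 := ⟨1 / (4 * K), by positivity, by field_simp⟩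
  obtain ⟨X, hX⟩ := h η η0
  obtain ⟨s, hs⟩ : ∃ s, s = y * X 0 (.inl 0) := ⟨_, rfl⟩
  obtain ⟨t, ht⟩ : ∃ t, t = y * X 0 (.inr 0) := ⟨_, rfl⟩
  have a : ‖star s * s - y * y‖ < η := by simpa [hs, hy, mul_assoc] using hX (.inl 0) (.inl 0)
  have b : ‖star t * t - y * y‖ < η := by simpa [ht, hy, mul_assoc] using hX (.inr 0) (.inr 0)
  have c : ‖star t * s‖ < η := by simpa [hs, ht, hy, mul_assoc] using hX (.inr 0) (.inl 0)
  have c' : ‖star s * t‖ < η := by simpa [hs, ht, hy, mul_assoc] using hX (.inl 0) (.inr 0)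
  rw [norm_sub_rev] at a b
  obtain ⟨z, z1, z2⟩ := exact_bd (d := star s * s) hf (by nlinarith)
  obtain ⟨z', z1'⟩ := exact_of_near (d := star (t - s * z * (star s * t)) * t) hf (by
    have e : y * y - star (t - s * z * (star s * t)) * t =
        y * y - star t * t + star t * s * star z * (star s * t) := by
      simp only [star_sub, star_mul, star_star, sub_mul, mul_assoc]
      abel
    have n1 := norm_add_le (y * y - star t * t) (star t * s * star z * (star s * t))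
    have n2 := (norm_mul_le (star t * s * star z) (star s * t)).trans (mul_le_mul
      ((norm_mul_le _ _).trans (mul_le_mul c.le ((norm_star z).trans_le
        (z2.trans (by linarith : 2 * ‖k‖ ≤ 2 * K))) (norm_nonneg _) η0.le)) c'.le (norm_nonneg _)
        (by positivity))
    rw [e]
    have n3 : ‖y * y - star t * t + star t * s * star z * (star s * t)‖ ≤ 2 * η := by nlinarith
    nlinarith)
  have e : y * (X 0 (.inr 0) - X 0 (.inl 0) * z * (star s * t)) = t - s * z * (star s * t) := by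
    rw [mul_sub, ← ht, hs]
    simp only [mul_assoc]
  refine ⟨X 0 (.inl 0), X 0 (.inr 0) - X 0 (.inl 0) * z * (star s * t), ?_, fun I hI h => ?_,
    fun I hI h => ?_⟩
  · rw [← hs, e, star_mul, f0, ← mul_assoc, mul_sub]
    have : f * star s * (s * z * (star s * t)) = f * (star s * s) * z * (star s * t) := by
      simp only [mul_assoc]
    rw [this, ← z1, mul_assoc f, sub_self, zero_mul]
  · have := I.mul_mem_right _ (s * z) (star_mem' hI h)
    rw [← hs, star_mul, f0] at this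
    rw [z1]
    simpa only [mul_assoc] using this
  · have := I.mul_mem_right _ (t * z') (star_mem' hI h)
    rw [e, star_mul, f0] at this
    rw [z1']
    simpa only [mul_assoc] using this

theorem near_cut {f g k c : A} (hf : f = f * g * k) (c0 : 0 ≤ c) (hc : PInf 1 c)
    (hg : g ∈ Idl c) : ∃ η : ℝ, 0 < η ∧ ∀ ρ, ‖c - ρ‖ ≤ η → f ∈ Idl ρ := by
  have U : IsOpen {x : A | ‖g - x‖ * ‖k‖ < 1} := isOpen_lt (by fun_prop) continuous_const
  obtain ⟨_, d1, p, q, rfl⟩ := mem_closure_iff.1 (Idl_sub le_rfl c0 hc hg) _ U (by simp)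
  have V : IsOpen {x : A | ‖g - ∑ l, star (p l) * x * q l‖ * ‖k‖ < 1} :=
    isOpen_lt (by fun_prop) continuous_const
  obtain ⟨δ, δ0, hδ⟩ := Metric.isOpen_iff.1 V c d1
  refine ⟨δ / 2, by positivity, fun ρ hρ I hI h => ?_⟩
  obtain ⟨z, hz⟩ := exact_of_near hf (hδ (mem_ball_iff_norm'.2 (by linarith)) :
    ‖g - ∑ l, star (p l) * ρ * q l‖ * ‖k‖ < 1)
  exact hz ▸ I.mul_mem_right _ _ (I.mul_mem_left _ _ (sum_mem fun l _ =>
    I.mul_mem_right _ _ (I.mul_mem_left _ _ h)))

omit [PartialOrder A] [StarOrderedRing A] in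
theorem sum_closure {a b x : A}
    (h : ∀ I : TwoSidedIdeal A, IsClosed (I : Set A) → a ∈ I → b ∈ I → x ∈ I) {ε : ℝ}
    (hε : 0 < ε) : ∃ u ∈ Idl a, ∃ v ∈ Idl b, ‖x - (u + v)‖ < ε := by
  let S : Set A := {x | ∃ u ∈ Idl a, ∃ v ∈ Idl b, x = u + v}
  let L : TwoSidedIdeal A := TwoSidedIdeal.mk' (closure S)
    (subset_closure ⟨0, fun I _ _ => I.zero_mem, 0, fun I _ _ => I.zero_mem, by simp⟩)
    (fun {x y} hx hy => map_mem_closure₂ continuous_add hx hy (by
      rintro _ ⟨u, hu, v, hv, rfl⟩ _ ⟨u', hu', v', hv', rfl⟩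
      exact ⟨u + u', fun I c h => I.add_mem (hu I c h) (hu' I c h), v + v',
        fun I c h => I.add_mem (hv I c h) (hv' I c h), add_add_add_comm _ _ _ _⟩))
    (fun {x} hx => map_mem_closure continuous_neg hx (by
      rintro _ ⟨u, hu, v, hv, rfl⟩
      exact ⟨-u, fun I c h => I.neg_mem (hu I c h), -v, fun I c h => I.neg_mem (hv I c h),
        neg_add _ _⟩))
    (fun {x y} hy => map_mem_closure (continuous_const_mul x) hy (by
      rintro _ ⟨u, hu, v, hv, rfl⟩
      exact ⟨x * u, fun I c h => I.mul_mem_left _ _ (hu I c h), x * v,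
        fun I c h => I.mul_mem_left _ _ (hv I c h), mul_add _ _ _⟩))
    (fun {x y} hx => map_mem_closure (f := fun x => x * y) (continuous_mul_const y) hx (by
      rintro _ ⟨u, hu, v, hv, rfl⟩
      exact ⟨u * y, fun I c h => I.mul_mem_right _ _ (hu I c h), v * y,
        fun I c h => I.mul_mem_right _ _ (hv I c h), add_mul _ _ _⟩))
  have hL : (L : Set A) = closure S := TwoSidedIdeal.coe_mk' _ _ _ _ _ _
  have m : ∀ x, x ∈ L ↔ x ∈ closure S := fun x => by rw [← hL]; rfl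
  obtain ⟨_, ⟨u, hu, v, hv, rfl⟩, h'⟩ := Metric.mem_closure_iff.1 ((m x).1 (h L
    (hL ▸ isClosed_closure) ((m a).2 (subset_closure ⟨a, self_Idl a, 0, fun I _ _ => I.zero_mem,
      by simp⟩)) ((m b).2 (subset_closure ⟨0, fun I _ _ => I.zero_mem, b, self_Idl b,
      by simp⟩)))) ε hε
  exact ⟨u, hu, v, hv, by rwa [dist_eq_norm] at h'⟩

theorem vec {u g : A} (hp : PurelyInf A) (g0 : 0 ≤ g) (hg : g ∈ Idl u) {ε : ℝ} (hε : 0 < ε) :
    ∃ w ∈ closure (Set.range fun r => u * r), ‖g - sq w‖ < ε := by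
  have hu : u ∈ closure (Set.range fun x => u * x) := by
    refine Metric.mem_closure_iff.2 fun δ hδ => ?_
    obtain ⟨k, hk, -⟩ := approx2 u hδ
    exact ⟨u * (sq u * k), ⟨_, rfl⟩, by rwa [dist_eq_norm]⟩
  obtain ⟨_, ⟨w, w1, rfl⟩, w2⟩ := Metric.mem_closure_iff.1 (sym_mem (r := 0) (RI_range u)
    (t := fun _ => u) (fun _ => hu) (fun _ => rfl)
    (fun j j' h => absurd (Subsingleton.elim (α := Fin 1) _ _) h)
    (hp _ (star_mul_self_nonneg u)) g0 (Idl_trans hg (Idl_sq u))) ε hε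
  exact ⟨w, w1, by rwa [dist_eq_norm] at w2⟩

end Vale.Agent.P133
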