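import Vale.Agent.P133.Neg

namespace Vale.Agent.P133

open Filter Topology

variable {A : Type*} [NonUnitalCStarAlgebra A] [PartialOrder A] [StarOrderedRing A]
variable {I : TwoSidedIdeal A}

theorem onto (hI : IsClosed (I : Set A)) {p h : A} (p1 : star p = p) (p2 : p * p = p)
    (h1 : star h = h) {θ : ℝ} (θ0 : 0 < θ) (hl : low p h θ ∈ I) : ∃ r, p - p * h * r ∈ I := by
  obtain ⟨q, q0, hq⟩ := low_ng hI hl p
  have sp : sq p = p := by rw [sq, p1, p2]
  have np : ‖p‖ ≤ 1 := by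
    have := CStarRing.norm_star_mul_self (x := p)
    rw [p1, p2] at this
    nlinarith [norm_nonneg p]
  have n0 := norm_nonneg q
  rw [p2, sp] at hq
  have a := CStarAlgebra.star_left_conjugate_le_norm_smul (a := p) q0.isSelfAdjoint
  have a0 := star_left_conjugate_nonneg q0 p
  rw [p1] at a0
  rw [p1, p2] at a
  have b := CStarAlgebra.norm_le_norm_of_nonneg_of_le (sub_nonneg.2 a) (sub_le_self _ a0)
  rw [norm_smul, norm_norm] at b
  have l0 : 0 < θ + ‖q‖ := by positivity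
  obtain ⟨z, hz⟩ := exact_of_near (f := p) (c := p) (k := p)
    (d := (θ + ‖q‖)⁻¹ • (θ • p + p * q * p)) (by rw [p2, p2]) (by
      have e : p - (θ + ‖q‖)⁻¹ • (θ • p + p * q * p) =
          (θ + ‖q‖)⁻¹ • (‖q‖ • p - p * q * p) := by
        rw [eq_inv_smul_iff₀ l0.ne', smul_sub, smul_inv_smul₀ l0.ne']
        module
      rw [e, norm_smul, Real.norm_of_nonneg (by positivity), mul_assoc, inv_mul_lt_iff₀ l0]
      nlinarith [norm_nonneg p, norm_nonneg (‖q‖ • p - p * q * p),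
        mul_le_of_le_one_right n0 np, mul_le_of_le_one_right (norm_nonneg (‖q‖ • p - p * q * p)) np])
  refine ⟨(θ + ‖q‖)⁻¹ • (h * p * z), ?_⟩
  have := smul_mem' hI (θ + ‖q‖)⁻¹
    (I.mul_mem_right _ z (I.mul_mem_right _ p (I.mul_mem_left p _ hq)))
  have pp : ∀ x, p * (p * x) = p * x := fun x => by rw [← mul_assoc, p2]
  nth_rewrite 1 [hz]
  refine (congrArg (· ∈ I) ?_).mp this
  simp only [sq, star_mul, p1, h1, mul_add, add_mul, mul_sub, sub_mul, mul_smul_comm,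
    smul_mul_assoc, mul_assoc, pp, p2]
  module

theorem stepA (hI : IsClosed (I : Set A)) {p g₁ g₂ : A} (p1 : star p = p) (p2 : p * p = p)
    (a1 : star g₁ = g₁) (a2 : star g₂ = g₂) (o : g₁ * g₂ = 0) (hg : g₁ ∈ Idl g₂) {θ δ : ℝ}
    (θ0 : 0 < θ) (δ0 : 0 < δ) (hl : low p (g₁ * g₁) θ ∈ I) (hu : low (g₁ + g₂) p δ ∈ I) :
    p ∈ I := by
  obtain ⟨r, hr⟩ := onto hI p1 p2 (by rw [star_mul, a1]) θ0 hl
  have o' : g₂ * g₁ = 0 := by simpa [a1, a2] using congrArg star o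
  have o1 : ∀ x, g₁ * (g₂ * x) = 0 := fun x => by rw [← mul_assoc, o, zero_mul]
  have o2 : ∀ x, g₂ * (g₁ * x) = 0 := fun x => by rw [← mul_assoc, o', zero_mul]
  have e : (g₁ + g₂) * (g₂ - g₁ * r * (p * (g₂ * g₂))) =
      g₂ * g₂ - g₁ * g₁ * r * (p * (g₂ * g₂)) := by
    simp only [add_mul, mul_sub, mul_assoc, o, o2, zero_add, add_zero]
  have m : p * (g₂ * g₂ - g₁ * g₁ * r * (p * (g₂ * g₂))) ∈ I := by
    have := I.mul_mem_right _ (p * (g₂ * g₂)) hr
    rw [sub_mul, ← mul_assoc p p, p2] at this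
    simpa only [mul_sub, mul_assoc] using this
  have n := low_ng hI hu (g₂ - g₁ * r * (p * (g₂ * g₂)))
  rw [e] at n
  have b := I.mul_mem_left g₂ _ (n.fin hI (c' := 0) δ0 (I.mul_mem_left (star _) _ m)
    (by rw [sub_self]; exact I.zero_mem) (by rw [zero_smul, zero_add]; rfl))
  simp only [mul_sub, mul_assoc, o2, sub_zero] at b
  have c : g₂ ∈ I := mem_of_sq hI (mem_of_sq hI (by
    rw [star_mul, star_star, a2, mul_assoc]
    exact I.mul_mem_left _ _ b))
  simpa using I.add_mem hr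
    (I.mul_mem_right _ r (I.mul_mem_left p _ (I.mul_mem_left g₁ _ (hg I hI c))))

theorem sq_sub_le (b e : A) (he : ‖e‖ ≤ 1) : sq (b - e * b) ≤ (4 : ℝ) • sq b := by
  have h1 := sq_mul_le e b (C := 1) (by nlinarith [norm_nonneg e])
  have h2 := sq_nonneg (b + e * b)
  have e1 : (4 : ℝ) • sq b - sq (b - e * b) =
      sq (b + e * b) + (2 : ℝ) • ((1 : ℝ) • sq b - sq (e * b)) := by
    simp only [sq, star_add, star_sub, mul_add, add_mul, mul_sub, sub_mul]
    module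
  rw [← sub_nonneg, e1]
  exact add_nonneg h2 (smul_nonneg zero_le_two (sub_nonneg.2 h1))

theorem stepB {p h u : A} (p1 : star p = p) (p2 : p * p = p) (h1 : star h = h) {θ : ℝ}
    (θ0 : 0 < θ) (H : ∀ I : TwoSidedIdeal A, IsClosed (I : Set A) → low p h (θ / 8) ∈ I →
      u ∈ I → p ∈ I) : ∃ e ∈ Idl u, p ∈ Idl (low p (star (h - h * e)) θ) := by
  obtain ⟨r, r0, hr⟩ : ∃ r : ℝ, 0 < r ∧ r ^ 2 < θ :=
    ⟨√θ / 2, by positivity, by rw [div_pow, Real.sq_sqrt θ0.le]; linarith⟩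
  obtain ⟨κ, κ0, hκ⟩ : ∃ κ : ℝ, 0 < κ ∧ κ * (2 * ‖h‖ + 1) = r :=
    ⟨r / (2 * ‖h‖ + 1), by positivity, by field_simp⟩
  obtain ⟨a, ha, n, hn, d⟩ := sum_closure H κ0
  obtain ⟨k, k1, k2⟩ := approx2 (n * h) κ0
  obtain ⟨e, he⟩ : ∃ e, e = sq (n * h) * k := ⟨_, rfl⟩
  rw [← he] at k1 k2
  refine ⟨e, fun I hI hu => he ▸ I.mul_mem_right _ _ (I.mul_mem_left _ _
    (I.mul_mem_right _ _ (hn I hI hu))), fun I hI hl => ?_⟩
  have pl : p * low p h (θ / 8) = low p h (θ / 8) := by rw [low, ← mul_assoc, p2]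
  have n1 := low_ng hI hl (low p h (θ / 8))
  rw [pl] at n1
  have a0 : low p h (θ / 8) ∈ I := n1.fin hI (c' := θ / 2) (by linarith) I.zero_mem
    (by rw [sub_self]; exact I.zero_mem) (by
      rw [add_zero, star_sub, star_mul, h1, sub_mul, mul_assoc]
      refine (sq_sub_le _ _ ((norm_star e).trans_le k2)).trans ?_
      refine (smul_le_smul_of_nonneg_left (low_le' p h (θ / 8)) (by norm_num)).trans_eq ?_
      rw [smul_smul]
      congr 1
      ring)
  have n2 := low_ng hI hl p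
  rw [p2] at n2
  obtain ⟨v, hv⟩ : ∃ v, v = h - h * e := ⟨_, rfl⟩
  have nv : ‖v‖ ≤ 2 * ‖h‖ := by
    rw [hv]
    linarith [norm_sub_le h (h * e),
      (norm_mul_le h e).trans (mul_le_of_le_one_right (norm_nonneg _) k2)]
  have nn : ‖n * v‖ < κ := by rwa [hv, mul_sub, ← mul_assoc]
  rw [← hv] at n2
  obtain ⟨σ, hσ⟩ : ∃ σ, σ = (p - (a + n)) * v + n * v := ⟨_, rfl⟩
  have ns : ‖σ‖ ≤ r := by
    have := (norm_mul_le (p - (a + n)) v).trans (mul_le_mul d.le nv (norm_nonneg _) κ0.le)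
    rw [hσ]
    nlinarith [norm_add_le ((p - (a + n)) * v) (n * v)]
  have j : star (a * v) * p ∈ I :=
    I.mul_mem_right _ _ (star_mem' hI (I.mul_mem_right _ _ (ha I hI a0)))
  have e1 : star v * p = star σ * p + star (a * v) * p := by
    have : σ + a * v = p * v := by
      rw [hσ]
      simp only [sub_mul, add_mul]
      abel
    rw [← add_mul, ← star_add, this, star_mul, p1, mul_assoc, p2]
  refine n2.fin hI hr (j := sq (star v * p) - sq (star σ * p)) ?_
    (by rw [sub_self]; exact I.zero_mem) ?_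
  · have e2 : sq (star v * p) - sq (star σ * p) = star (star (a * v) * p) * (star σ * p) +
        star (star v * p) * (star (a * v) * p) := by
      rw [sq, sq, e1]
      simp only [star_add, add_mul, mul_add]
      abel
    rw [e2]
    exact I.add_mem (I.mul_mem_right _ _ (star_mem' hI j)) (I.mul_mem_left _ _ j)
  · rw [← sub_le_iff_le_add, sub_sub_cancel]
    exact sq_mul_le _ _ (by rw [norm_star]; nlinarith [norm_nonneg σ])

theorem one_proj (hp : PurelyInf A) {p y : A} (p1 : star p = p) (p2 : p * p = p) (y0 : 0 ≤ y)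
    {ε : ℝ} (hε : 0 < ε) : ∃ s t, ‖star s * (p * p) * s - p * p‖ < ε ∧
      ‖star t * (y * y) * t - y * y‖ < ε ∧ ‖star s * (p * y) * t‖ < ε := by
  have ys := y0.isSelfAdjoint.star_eq
  have c0 : 0 ≤ y * y := by simpa only [ys] using star_mul_self_nonneg y
  have p0 : 0 ≤ p := by simpa only [p1, p2] using star_mul_self_nonneg p
  have np : ‖p‖ ≤ 1 := by
    have := CStarRing.norm_star_mul_self (x := p)
    rw [p1, p2] at this
    nlinarith [norm_nonneg p]
  obtain ⟨f, k, f0, f1, f2, -⟩ := cut c0 (ε := ε / 3) (by positivity)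
  obtain ⟨f', k', f0', f1', f2', -⟩ := cut f0 (ε := ε / 3) (by positivity)
  obtain ⟨x₁, x₂, o, i1, i2⟩ := gram ys (hp _ c0) f0.isSelfAdjoint.star_eq f1
  obtain ⟨g₁, hg₁⟩ : ∃ g, g = y * x₁ * f * star (y * x₁ * f) := ⟨_, rfl⟩
  obtain ⟨g₂, hg₂⟩ : ∃ g, g = y * x₂ * f * star (y * x₂ * f) := ⟨_, rfl⟩
  have a1 : star g₁ = g₁ := by rw [hg₁, star_mul, star_star]
  have a2 : star g₂ = g₂ := by rw [hg₂, star_mul, star_star]
  have o1 : g₁ * g₂ = 0 := by
    rw [hg₁, hg₂, mul_assoc, ← mul_assoc (star _), o, zero_mul, mul_zero]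
  have o2 : g₂ * g₁ = 0 := by simpa [a1, a2] using congrArg star o1
  have i : ∀ s : A, s ∈ Idl (s * star s) := fun s I hI h => by
    simpa using star_mem' hI (mem_of_sq hI (x := star s) (by rwa [star_star]))
  have h1 : star (g₁ * g₁) = g₁ * g₁ := by rw [star_mul, a1]
  have hc : 0 ≤ g₁ * g₁ * (g₁ * g₁) := by simpa only [h1] using star_mul_self_nonneg (g₁ * g₁)
  obtain ⟨η, η0, hη⟩ := near_cut f1' hc (hp _ hc) (Idl_trans i1 (Idl_trans (hg₁ ▸ i _)
    (Idl_trans (by simpa only [a1] using i g₁) (by simpa only [h1] using i (g₁ * g₁)))))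
  obtain ⟨ρ, l, r0, r1, r2, -⟩ := cut hc η0
  have r3 : ρ = star l * (g₁ * g₁) * (g₁ * g₁ * ρ) := by
    have := congrArg star r1
    rw [star_mul, star_mul, star_mul, h1, r0.isSelfAdjoint.star_eq] at this
    simpa only [mul_assoc] using this
  obtain ⟨C, hC⟩ : ∃ C, C = ‖star l * (g₁ * g₁)‖ ^ 2 := ⟨_, rfl⟩
  have C0 : 0 ≤ C := hC ▸ by positivity
  obtain ⟨δ, δ0, hδ⟩ : ∃ δ : ℝ, 0 < δ ∧ δ * (‖f'‖ + 1) = ε ^ 2 / 2 :=
    ⟨ε ^ 2 / 2 / (‖f'‖ + 1), by positivity, by field_simp⟩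
  obtain ⟨θ, θ0, hθ⟩ : ∃ θ : ℝ, 0 < θ ∧ θ * 2 * (C + 1) = δ :=
    ⟨δ / (2 * (C + 1)), by positivity, by field_simp⟩
  obtain ⟨e, e1, e2⟩ := stepB p1 p2 h1 θ0 (u := low (g₁ + g₂) p (δ / 4)) fun I hI hl hu =>
    stepA hI p1 p2 a1 a2 o1 (Idl_trans (fun I _ h => hg₁ ▸ I.mul_mem_right _ _
      (I.mul_mem_left _ _ h)) (Idl_trans i2 (hg₂ ▸ i _))) (by positivity) (by positivity) hl hu
  obtain ⟨w, w1, w2⟩ := vec hp p0 e2 (ε := min ε 1) (by positivity)
  have pw : p * w = w := by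
    refine closure_minimal (t := {w | p * w = w}) ?_
      (isClosed_eq (by fun_prop) continuous_id) w1
    rintro _ ⟨r, rfl⟩
    simp only [Set.mem_setOf_eq, low, ← mul_assoc, p2]
  have wp : star w * p = star w := by simpa only [star_mul, p1] using congrArg star pw
  have nw : ‖w‖ ^ 2 ≤ 2 := by
    have := norm_sub_le p (p - sq w)
    rw [sub_sub_cancel, sq, CStarRing.norm_star_mul_self, ← sq] at this
    linarith [min_le_right ε 1]
  have nu := norm_le_of_sq θ0.le (low_le _ _ _ w1)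
  have fu : f' ∈ Idl (low (g₁ + g₂) (star w) δ) := fun I hI hl => by
    have n1 := low_ng hI hl ((δ / 4) • sq (g₁ + g₂) - sq (p * (g₁ + g₂)))⁺
    rw [← low] at n1
    have u2 : low (g₁ + g₂) p (δ / 4) ∈ I := n1.fin hI (c' := δ / 2) (by linarith) I.zero_mem
      (by rw [sub_self]; exact I.zero_mem) (by
        rw [add_zero, ← wp, mul_assoc]
        refine (sq_mul_le _ _ (C := 2) (by rwa [norm_star])).trans ?_
        refine (smul_le_smul_of_nonneg_left (low_le' _ p (δ / 4)) (by norm_num)).trans_eq ?_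
        rw [smul_smul]
        congr 1
        ring)
    have n2 := low_ng hI hl ((g₁ - g₁ * e) * ρ)
    have e3 : (g₁ + g₂) * ((g₁ - g₁ * e) * ρ) = (g₁ * g₁ - g₁ * g₁ * e) * ρ := by
      simp only [add_mul, mul_sub, sub_mul, ← mul_assoc, o2, zero_mul, add_zero]
    rw [e3] at n2
    have j : g₁ * g₁ * e * ρ ∈ I := I.mul_mem_right _ _ (I.mul_mem_left _ _ (e1 I hI u2))
    have b : g₁ * g₁ * ρ ∈ I := n2.fin hI (c' := θ * 2 * C) (by nlinarith) I.zero_mem (by
      have : sq ((g₁ * g₁ - g₁ * g₁ * e) * ρ) - sq (g₁ * g₁ * ρ) =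
          star (g₁ * g₁ * e * ρ) * (g₁ * g₁ * e * ρ - g₁ * g₁ * ρ) -
            star (g₁ * g₁ * ρ) * (g₁ * g₁ * e * ρ) := by
        simp only [sq, sub_mul, star_sub, mul_sub]
        abel
      rw [this]
      exact I.sub_mem (I.mul_mem_right _ _ (star_mem' hI j)) (I.mul_mem_left _ _ j)) (by
        rw [add_zero, ← mul_assoc]
        refine (sq_mul_le _ _ (C := θ * 2) (by
          rw [← norm_star, star_mul, star_star]
          nlinarith)).trans ?_
        rw [mul_smul (θ * 2) C]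
        refine smul_le_smul_of_nonneg_left ?_ (by positivity : 0 ≤ θ * 2)
        nth_rewrite 1 [r3]
        exact sq_mul_le _ _ hC.ge)
    exact hη ρ r2 I hI (r3 ▸ I.mul_mem_left _ _ b)
  obtain ⟨v, v1, v2⟩ := vec hp f0' fu (ε := min (ε / 3) 1) (by positivity)
  have nv : ‖v‖ ^ 2 ≤ ‖f'‖ + 1 := by
    have := norm_sub_le f' (f' - sq v)
    rw [sub_sub_cancel, sq, CStarRing.norm_star_mul_self, ← sq] at this
    linarith [min_le_right (ε / 3) 1]
  have x1 : ‖star w * v‖ < ε := by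
    have := norm_le_of_sq δ0.le (low_le _ _ _ v1)
    refine lt_of_pow_lt_pow_left₀ 2 hε.le ?_
    nlinarith [sq_pos_of_pos hε]
  have x2 : ‖sq v - y * y‖ < ε := by
    rw [norm_sub_rev]
    linarith [norm_sub_le_norm_sub_add_norm_sub (y * y) f (sq v),
      norm_sub_le_norm_sub_add_norm_sub f f' (sq v), min_le_left (ε / 3) 1]
  have vy : v ∈ closure (Set.range fun t => y * t) := by
    refine closure_mono ?_ v1
    rintro _ ⟨r, rfl⟩
    refine ⟨(x₁ * f * star (y * x₁ * f) + x₂ * f * star (y * x₂ * f)) *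
      (δ • sq (g₁ + g₂) - sq (star w * (g₁ + g₂)))⁺ * r, ?_⟩
    have : g₁ + g₂ = y * (x₁ * f * star (y * x₁ * f) + x₂ * f * star (y * x₂ * f)) := by
      rw [hg₁, hg₂]
      simp only [mul_add, mul_assoc]
    change _ = low _ _ _ * r
    rw [low]
    nth_rewrite 3 [this]
    simp only [mul_assoc]
  have U1 : IsOpen {v : A | ‖star w * v‖ < ε} := isOpen_lt (by fun_prop) continuous_const
  have U2 : IsOpen {v : A | ‖sq v - y * y‖ < ε} :=
    isOpen_lt (by unfold sq; fun_prop) continuous_const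
  obtain ⟨_, ⟨t1, t2⟩, t, rfl⟩ := mem_closure_iff.1 vy _ (U1.inter U2) ⟨x1, x2⟩
  simp only [Set.mem_setOf_eq] at t1 t2
  refine ⟨w, t, ?_, ?_, ?_⟩
  · rw [p2, wp, norm_sub_rev]
    exact w2.trans_le (min_le_left _ _)
  · simpa only [sq, star_mul, ys, mul_assoc] using t2
  · rwa [← mul_assoc, wp, mul_assoc]

end Vale.Agent.P133
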