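import Vale.Agent.P133.Bas

namespace Vale.Agent.P133

variable {A : Type*} [NonUnitalCStarAlgebra A]

/-- iterated left multiplication -/
def pr (u : ℕ → A) : ℕ → A → A
  | 0, x => x
  | m + 1, x => u m * pr u m x

theorem pr_congr {u v : ℕ → A} (x : A) : ∀ m, (∀ i < m, u i = v i) → pr u m x = pr v m x
  | 0, _ => rfl
  | m + 1, h => by
    rw [pr, pr, h m (Nat.lt_succ_self m), pr_congr x m fun i hi => h i (Nat.lt_succ_of_lt hi)]

theorem pr_mul (u : ℕ → A) (x y : A) : ∀ m, pr u m (x * y) = pr u m x * y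
  | 0 => rfl
  | m + 1 => by rw [pr, pr, pr_mul u x y m, mul_assoc]

theorem pr_sum {ι : Type*} (u : ℕ → A) (s : Finset ι) (x : ι → A) :
    ∀ m, pr u m (∑ i ∈ s, x i) = ∑ i ∈ s, pr u m (x i)
  | 0 => rfl
  | m + 1 => by simp only [pr, pr_sum u s x m, Finset.mul_sum]

theorem pr_mem (u : ℕ → A) (x : A) (I : TwoSidedIdeal A) {m m' : ℕ} (h : m ≤ m')
    (hx : pr u m x ∈ I) : pr u m' x ∈ I := by
  induction m', h using Nat.le_induction with
  | base => exact hx
  | succ m' _ ih => exact I.mul_mem_left _ _ ih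

/-- the word attached to a choice function -/
def al {n : ℕ} (α : Fin n → Fin n → A) (w : Fin n → Fin n) (i : ℕ) : A :=
  if h : i < n then α ⟨i, h⟩ (w ⟨i, h⟩) else 0

variable [PartialOrder A] [StarOrderedRing A]

theorem back {n : ℕ} (hn : 1 ≤ n) (α : Fin n → Fin n → A) {f : A} (hf : star f = f)
    (hα : ∀ i, f = ∑ l, α i l) {I : TwoSidedIdeal A} (hI : IsClosed (I : Set A))
    (h : ∀ w, pr (al α w) n f ∈ I) : f ∈ I := by
  have key : ∀ j ≤ n, ∀ w, f * pr (al α w) j f ∈ I := by
    intro j hj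
    induction hj using Nat.decreasingInduction with
    | self => exact fun w => I.mul_mem_left _ _ (h w)
    | of_succ j hj ih =>
      intro w
      refine mem_of_sq hI ?_
      rw [star_mul, hf, mul_assoc]
      refine I.mul_mem_left _ _ ?_
      have e : f * (f * pr (al α w) j f) =
          ∑ l, f * pr (al α (Function.update w ⟨j, hj⟩ l)) (j + 1) f := by
        rw [← Finset.mul_sum]
        refine congrArg _ ?_
        nth_rewrite 1 [hα ⟨j, hj⟩]
        rw [Finset.sum_mul]
        refine Finset.sum_congr rfl fun l _ => ?_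
        rw [pr, pr_congr (u := al α (Function.update w ⟨j, hj⟩ l)) (v := al α w) f j fun i hi => by
          have : (⟨i, hi.trans hj⟩ : Fin n) ≠ ⟨j, hj⟩ := fun e => hi.ne (congrArg Fin.val e)
          simp only [al, dif_pos (hi.trans hj), Function.update_of_ne this]]
        simp only [al, dif_pos hj, Function.update_self]
      rw [e]
      exact sum_mem fun l _ => ih _
  exact mem_of_sq hI (by rw [hf]; exact key 0 (Nat.zero_le n) fun _ => ⟨0, hn⟩)

theorem trick {n : ℕ} (hn : 1 ≤ n) (a : Fin n → A) (b : (Fin n → Fin n) → A) {f : A}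
    (hf : star f = f) (hb : ∀ w w', w ≠ w' → b w * b w' = 0)
    (ha : ∀ i, f ∈ Sm n (a i)) (hb' : ∀ w, f ∈ Sm n (b w * b w)) :
    ∃ y : Fin n → (Fin n → Fin n) → A, ∀ I : TwoSidedIdeal A, IsClosed (I : Set A) →
      (∀ i, a i * ∑ w, y i w * b w ∈ I) → f ∈ I := by
  choose p q hpq using ha
  choose p' q' hpq' using hb'
  let α : Fin n → Fin n → A := fun i l => star (p i l) * a i * q i l
  refine ⟨fun i w => q i (w i) * pr (al α w) i (star (p' w i)), fun I hI h => ?_⟩
  refine back hn α hf hpq hI fun w => ?_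
  rw [hpq' w, pr_sum]
  refine sum_mem fun i _ => pr_mem _ _ I (Nat.succ_le_of_lt i.2) ?_
  have := I.mul_mem_left (star (p i (w i))) _ (I.mul_mem_right _ (b w * q' w i) (h i))
  rw [mul_assoc (a i), Finset.sum_mul, Finset.sum_eq_single w (fun w' _ hw => by
    rw [mul_assoc, ← mul_assoc (b w'), hb w' w hw, zero_mul, mul_zero]) (by simp)] at this
  simp only [pr, al, dif_pos i.2, α, pr_mul, mul_assoc] at this ⊢
  exact this

end Vale.Agent.P133
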